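import Vale.Agent.Lib.P037L.LDefs
import Vale.Agent.Lib.P037.ProdAvg

namespace Vale.Agent.Lib.P037L
open Finset
variable {n m : ℕ}

theorem cntL_eq (A : Fin n → Fin m → Bool) : cntL A = ∑ x, ∑ y, kap A x y := by
  unfold cntL kap ee
  rw [Finset.card_filter, Fintype.sum_prod_type, Fintype.sum_prod_type]
  apply Finset.sum_congr rfl; intro x _
  apply Finset.sum_congr rfl; intro y _
  by_cases h : x < y
  · rw [if_pos h, Finset.card_filter]
    apply Finset.sum_congr rfl; intro p _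
    simp [h]
  · simp [h]

theorem kap_self (A : Fin n → Fin m → Bool) (x : Fin n) : kap A x x = 0 := by
  simp [kap]

theorem card_fun_real (M : ℕ) :
    (#(Fintype.piFinset (fun _ : Fin M => (univ : Finset (Fin n)))) : ℝ) = (n : ℝ) ^ M := by
  rw [Fintype.card_piFinset]
  simp

theorem sum_two (hn : 0 < n) (A : Fin n → Fin m → Bool) (M : ℕ) (a b : Fin M) (hab : a ≠ b) :
    ∑ ω : Fin M → Fin n, (kap A (ω a) (ω b) : ℝ) = (n : ℝ) ^ M / ((n : ℝ) * n) * cntL A := by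
  have : Nonempty (Fin n) := ⟨⟨0, hn⟩⟩
  have h := Vale.Agent.Lib.P037.sum_pi_two (fun _ : Fin M => (univ : Finset (Fin n)))
    (fun _ => Finset.univ_nonempty) a b hab (fun x y => (kap A x y : ℝ))
  rw [card_fun_real, Fintype.piFinset_univ] at h
  rw [h, cntL_eq]
  simp

theorem sum_one (hn : 0 < n) (A : Fin n → Fin m → Bool) (M : ℕ) (a : Fin M) :
    ∑ ω : Fin M → Fin n, ∑ i, (kap A (ω a) i : ℝ) = (n : ℝ) ^ M / (n : ℝ) * cntL A := by
  have : Nonempty (Fin n) := ⟨⟨0, hn⟩⟩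
  have h := Vale.Agent.Lib.P037.sum_pi_one (fun _ : Fin M => (univ : Finset (Fin n)))
    (fun _ => Finset.univ_nonempty) a (fun x => ∑ i, (kap A x i : ℝ))
  rw [card_fun_real, Fintype.piFinset_univ] at h
  rw [h, cntL_eq]
  simp

/-- terms `a = b` vanish (`kap x x = 0`); terms `a ≠ b` by `sum_pi_two` with `S = fun _ => univ`
(`Fintype.piFinset_univ`), `#(Fin M → Fin n) = n^M`. -/
theorem sum_PP (hn : 0 < n) (A : Fin n → Fin m → Bool) (M : ℕ) :
    ∑ ω : Fin M → Fin n, (PP A ω : ℝ) ≤ (M : ℝ) ^ 2 * cntL A / (n : ℝ) ^ 2 * (n : ℝ) ^ M := by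
  have hn' : (0 : ℝ) < n := by exact_mod_cast hn
  have e1 : ∑ ω : Fin M → Fin n, (PP A ω : ℝ)
      = ∑ a : Fin M, ∑ b : Fin M, ∑ ω : Fin M → Fin n, (kap A (ω a) (ω b) : ℝ) := by
    unfold PP
    push_cast
    rw [Finset.sum_comm]
    apply Finset.sum_congr rfl; intro a _
    rw [Finset.sum_comm]
  have e2 : ∀ a b : Fin M, ∑ ω : Fin M → Fin n, (kap A (ω a) (ω b) : ℝ)
      ≤ (n : ℝ) ^ M / ((n : ℝ) * n) * cntL A := by
    intro a b
    by_cases hab : a = b
    · subst hab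
      simp only [kap_self, Nat.cast_zero, Finset.sum_const_zero]
      positivity
    · exact (sum_two hn A M a b hab).le
  rw [e1]
  calc ∑ a : Fin M, ∑ b : Fin M, ∑ ω : Fin M → Fin n, (kap A (ω a) (ω b) : ℝ)
      ≤ ∑ a : Fin M, ∑ b : Fin M, (n : ℝ) ^ M / ((n : ℝ) * n) * cntL A :=
        Finset.sum_le_sum fun a _ => Finset.sum_le_sum fun b _ => e2 a b
    _ = (M : ℝ) ^ 2 * cntL A / (n : ℝ) ^ 2 * (n : ℝ) ^ M := by
        simp only [Finset.sum_const, Finset.card_univ, Fintype.card_fin, nsmul_eq_mul]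
        field_simp

theorem sum_QQ (hn : 0 < n) (A : Fin n → Fin m → Bool) (M : ℕ) :
    ∑ ω : Fin M → Fin n, (QQ A ω : ℝ) = (M : ℝ) * cntL A / n * (n : ℝ) ^ M := by
  have hn' : (0 : ℝ) < n := by exact_mod_cast hn
  have e1 : ∑ ω : Fin M → Fin n, (QQ A ω : ℝ)
      = ∑ a : Fin M, ∑ ω : Fin M → Fin n, ∑ i, (kap A (ω a) i : ℝ) := by
    unfold QQ
    push_cast
    rw [Finset.sum_comm]
  rw [e1, Finset.sum_congr rfl (fun a _ => sum_one hn A M a)]
  simp only [Finset.sum_const, Finset.card_univ, Fintype.card_fin, nsmul_eq_mul]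
  field_simp

theorem good_of_PP {M : ℕ} (A : Fin n → Fin m → Bool) (k : ℕ) (ω : Fin M → Fin n)
    (h : PP A ω ≤ k * k) : Good A k (RepOf ω) := by
  intro x hx y hy hxy
  obtain ⟨a, -, rfl⟩ := Finset.mem_image.1 hx
  obtain ⟨b, -, rfl⟩ := Finset.mem_image.1 hy
  have h1 : kap A (ω a) (ω b) ≤ ∑ b, kap A (ω a) (ω b) :=
    Finset.single_le_sum (f := fun b => kap A (ω a) (ω b)) (fun _ _ => Nat.zero_le _)
      (Finset.mem_univ b)
  have h2 : ∑ b, kap A (ω a) (ω b) ≤ PP A ω :=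
    Finset.single_le_sum (f := fun a => ∑ b, kap A (ω a) (ω b)) (fun _ _ => Nat.zero_le _)
      (Finset.mem_univ a)
  have h3 : kap A (ω a) (ω b) = ee A (ω a) (ω b) := by simp [kap, hxy]
  omega

open Classical in
/-- a non-typical row `i` has `a` with `ω a < i` and `kap A (ω a) i ≥ k*k+1 ≥ k^2`. -/
theorem atyp_le {M : ℕ} (A : Fin n → Fin m → Bool) (k : ℕ) (hk : 1 ≤ k) (ω : Fin M → Fin n) :
    (#{i : Fin n | ¬ Typ A k (RepOf ω) i} : ℝ) ≤ (QQ A ω : ℝ) / (k : ℝ) ^ 2 := by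
  have hk' : (0 : ℝ) < (k : ℝ) ^ 2 := by
    have : (0 : ℝ) < k := by exact_mod_cast hk
    positivity
  rw [le_div_iff₀ hk']
  have key : #{i : Fin n | ¬ Typ A k (RepOf ω) i} * (k * k) ≤ QQ A ω := by
    have e1 : QQ A ω = ∑ i, ∑ a, kap A (ω a) i := by
      unfold QQ
      rw [Finset.sum_comm]
    rw [e1, Finset.card_eq_sum_ones, Finset.sum_mul, Finset.sum_filter]
    apply Finset.sum_le_sum
    intro i _
    by_cases hi : Typ A k (RepOf ω) i
    · simp [hi]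
    · rw [if_pos hi]
      unfold Typ at hi
      push Not at hi
      obtain ⟨x, hx, hxi, hlt⟩ := hi
      obtain ⟨a, -, rfl⟩ := Finset.mem_image.1 hx
      have h1 : kap A (ω a) i ≤ ∑ a, kap A (ω a) i :=
        Finset.single_le_sum (f := fun a => kap A (ω a) i) (fun _ _ => Nat.zero_le _)
          (Finset.mem_univ a)
      have h3 : kap A (ω a) i = ee A (ω a) i := by simp [kap, hxi]
      omega
  have : ((#{i : Fin n | ¬ Typ A k (RepOf ω) i} * (k * k) : ℕ) : ℝ) ≤ (QQ A ω : ℝ) := by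
    exact_mod_cast key
  push_cast at this
  nlinarith [this]

theorem card_RepOf_le {M : ℕ} (ω : Fin M → Fin n) : #(RepOf ω) ≤ M := by
  unfold RepOf
  calc #(univ.image ω) ≤ #(univ : Finset (Fin M)) := Finset.card_image_le
    _ = M := by simp

end Vale.Agent.Lib.P037L
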