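import Vale.Agent.Lib.P037L.LDefs
import Vale.Agent.Lib.P037.ProdAvg

namespace Vale.Agent.Lib.P037L
open Finset
variable {n m : ℕ}

/-- rows above `i` containing both `c` and `d`. -/
def WW (A : Fin n → Fin m → Bool) (i : Fin n) (c d : Fin m) : Finset (Fin n) :=
  {x | x < i ∧ A x c = true ∧ A x d = true}

/-- number of `ω` avoiding a set `W`. -/
theorem card_avoid (M : ℕ) (W : Finset (Fin n)) :
    #{ω : Fin M → Fin n | ∀ a, ω a ∉ W} = (n - #W) ^ M := by
  have e : ({ω : Fin M → Fin n | ∀ a, ω a ∉ W} : Finset (Fin M → Fin n))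
      = Fintype.piFinset (fun _ : Fin M => Wᶜ) := by
    ext ω
    simp [Fintype.mem_piFinset]
  rw [e, Fintype.card_piFinset, Finset.prod_const, Finset.card_univ, Fintype.card_fin,
    Finset.card_compl, Fintype.card_fin]

/-- `(1-t)^M (1+Mt) ≤ (1-t)^M (1+t)^M ≤ 1`. -/
theorem pow_sub_le (hn : 0 < n) (M T : ℕ) (hT : T ≤ n) :
    (((n - T : ℕ) : ℝ)) ^ M ≤ (n : ℝ) ^ M / (1 + M * T / n) := by
  have hnR : (0 : ℝ) < n := by exact_mod_cast hn
  have hTR : (T : ℝ) ≤ n := by exact_mod_cast hT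
  have hT0 : (0 : ℝ) ≤ T := Nat.cast_nonneg T
  set t : ℝ := (T : ℝ) / n with ht
  have ht0 : 0 ≤ t := by positivity
  have ht1 : t ≤ 1 := by rw [ht, div_le_one hnR]; exact hTR
  have hpos : (0 : ℝ) < 1 + M * T / n := by positivity
  rw [le_div_iff₀ hpos, Nat.cast_sub hT]
  have e1 : (n : ℝ) - T = n * (1 - t) := by rw [ht]; field_simp
  have e2 : (1 : ℝ) + M * T / n = 1 + M * t := by rw [ht]; ring
  rw [e1, e2, mul_pow, mul_assoc]
  have hb : 1 + (M : ℝ) * t ≤ (1 + t) ^ M := one_add_mul_le_pow (by linarith) M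
  have h1 : (1 - t) ^ M * (1 + M * t) ≤ (1 - t) ^ M * (1 + t) ^ M :=
    mul_le_mul_of_nonneg_left hb (pow_nonneg (by linarith) M)
  have h2 : (1 - t) ^ M * (1 + t) ^ M = (1 - t ^ 2) ^ M := by
    rw [← mul_pow]; congr 1; ring
  have h3 : (1 - t ^ 2) ^ M ≤ 1 := pow_le_one₀ (by nlinarith) (by nlinarith)
  have h4 : (1 - t) ^ M * (1 + M * t) ≤ 1 := by linarith
  calc (n : ℝ) ^ M * ((1 - t) ^ M * (1 + M * t)) ≤ (n : ℝ) ^ M * 1 :=
        mul_le_mul_of_nonneg_left h4 (by positivity)
    _ = (n : ℝ) ^ M := mul_one _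

/-- for fixed `c,d` the map `i ↦ #(WW A i c d)` is injective on the rows containing `c,d`. -/
theorem early_le (A : Fin n → Fin m → Bool) (T : ℕ) (c d : Fin m) :
    #{i : Fin n | A i c = true ∧ A i d = true ∧ #(WW A i c d) < T} ≤ T := by
  have hlt : ∀ i j : Fin n, A i c = true → A i d = true → i < j →
      #(WW A i c d) < #(WW A j c d) := by
    intro i j h1 h2 hij
    apply Finset.card_lt_card
    rw [Finset.ssubset_iff_of_subset]
    · refine ⟨i, ?_, ?_⟩
      · simp [WW, h1, h2, hij]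
      · simp [WW]
    · intro x hx
      simp only [WW, Finset.mem_filter, Finset.mem_univ, true_and] at hx ⊢
      exact ⟨lt_trans hx.1 hij, hx.2⟩
  calc #{i : Fin n | A i c = true ∧ A i d = true ∧ #(WW A i c d) < T}
      ≤ #(Finset.range T) := by
        apply Finset.card_le_card_of_injOn (fun i => #(WW A i c d))
        · intro i hi
          simp only [Finset.coe_filter, Finset.mem_univ, true_and, Set.mem_ofPred_eq] at hi
          simp only [Finset.coe_range, Set.mem_Iio]
          exact hi.2.2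
        · intro i hi j hj hij
          simp only [Finset.coe_filter, Finset.mem_univ, true_and, Set.mem_ofPred_eq] at hi hj
          simp only at hij
          rcases lt_trichotomy i j with h | h | h
          · exact absurd hij (ne_of_lt (hlt i j hi.1 hi.2.1 h))
          · exact h
          · exact absurd hij.symm (ne_of_lt (hlt j i hj.1 hj.2.1 h))
    _ = T := Finset.card_range T

theorem avoid_iff {M : ℕ} (A : Fin n → Fin m → Bool) (ω : Fin M → Fin n) (i : Fin n)
    (c d : Fin m) :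
    (¬ ∃ x ∈ RepOf ω, x < i ∧ A x c = true ∧ A x d = true) ↔ ∀ a, ω a ∉ WW A i c d := by
  simp only [RepOf, WW, Finset.mem_image, Finset.mem_univ, true_and, Finset.mem_filter]
  constructor
  · intro h a ha
    exact h ⟨ω a, ⟨a, rfl⟩, ha⟩
  · rintro h ⟨x, ⟨a, rfl⟩, hx⟩
    exact h a hx

open Classical in
theorem UU_cast {M : ℕ} (A : Fin n → Fin m → Bool) (ω : Fin M → Fin n) (i : Fin n) :
    (UU A (RepOf ω) i : ℝ) = ∑ c : Fin m, ∑ d : Fin m,
      if (A i c = true ∧ c < d ∧ A i d = true) ∧ (∀ a, ω a ∉ WW A i c d) then (1 : ℝ) else 0 := by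
  unfold UU
  push_cast
  apply Finset.sum_congr rfl
  intro c _
  by_cases hc : A i c = true
  · rw [if_pos hc]
    unfold unc
    rw [Finset.card_filter]
    push_cast
    apply Finset.sum_congr rfl
    intro d _
    by_cases h1 : c < d ∧ A i d = true ∧ ¬ ∃ x ∈ RepOf ω, x < i ∧ A x c = true ∧ A x d = true
    · rw [if_pos h1, if_pos ⟨⟨hc, h1.1, h1.2.1⟩, (avoid_iff A ω i c d).1 h1.2.2⟩]
    · rw [if_neg h1, if_neg]
      rintro ⟨⟨_, h2, h3⟩, h4⟩
      exact h1 ⟨h2, h3, (avoid_iff A ω i c d).2 h4⟩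
  · rw [if_neg hc]
    symm
    apply Finset.sum_eq_zero
    intro d _
    rw [if_neg]
    rintro ⟨⟨h, _⟩, _⟩
    exact hc h

/-- AVERAGE OF THE UNCOVERED PAIRS.
`∑_ω ∑_i UU = ∑_{i, c<d in row i} #{ω | ∀ a, ω a ∉ WW A i c d} = ∑ (n - #WW)^M`;
triples with `#WW < T`: at most `m^2 T`, each at most `n^M`; the others at most
`(n-T)^M ≤ n^M/(1+MT/n)`, at most `n m^2` of them. -/
theorem sum_UU (hn : 0 < n) (A : Fin n → Fin m → Bool) (M T : ℕ) (hT : T ≤ n) :
    ∑ ω : Fin M → Fin n, ∑ i, (UU A (RepOf ω) i : ℝ)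
      ≤ ((m : ℝ) ^ 2 * T + n * (m : ℝ) ^ 2 / (1 + M * T / n)) * (n : ℝ) ^ M := by
  classical
  have hnR : (0 : ℝ) < n := by exact_mod_cast hn
  set Q : ℝ := (n : ℝ) ^ M / (1 + M * T / n) with hQ
  have hQ0 : 0 ≤ Q := by positivity
  -- inner sum over ω
  have inner : ∀ (i : Fin n) (c d : Fin m),
      ∑ ω : Fin M → Fin n,
        (if (A i c = true ∧ c < d ∧ A i d = true) ∧ (∀ a, ω a ∉ WW A i c d) then (1 : ℝ) else 0)
      ≤ (if A i c = true ∧ A i d = true ∧ #(WW A i c d) < T then (n : ℝ) ^ M else 0) + Q := by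
    intro i c d
    by_cases h : A i c = true ∧ c < d ∧ A i d = true
    · have e : ∑ ω : Fin M → Fin n,
          (if (A i c = true ∧ c < d ∧ A i d = true) ∧ (∀ a, ω a ∉ WW A i c d)
            then (1 : ℝ) else 0) = (((n - #(WW A i c d) : ℕ) : ℝ)) ^ M := by
        have e1 := card_avoid M (WW A i c d)
        rw [Finset.card_filter] at e1
        have e2 : ((∑ ω : Fin M → Fin n, if (∀ a, ω a ∉ WW A i c d) then 1 else 0 : ℕ) : ℝ)
            = (((n - #(WW A i c d)) ^ M : ℕ) : ℝ) := by rw [e1]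
        push_cast at e2
        rw [← e2]
        apply Finset.sum_congr rfl
        intro ω _
        by_cases h2 : ∀ a, ω a ∉ WW A i c d
        · rw [if_pos ⟨h, h2⟩, if_pos h2]
        · rw [if_neg (fun hh => h2 hh.2), if_neg h2]
      rw [e]
      by_cases hW : #(WW A i c d) < T
      · rw [if_pos ⟨h.1, h.2.2, hW⟩]
        have : (((n - #(WW A i c d) : ℕ) : ℝ)) ^ M ≤ (n : ℝ) ^ M := by
          apply pow_le_pow_left₀ (Nat.cast_nonneg _)
          exact_mod_cast Nat.sub_le _ _
        linarith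
      · rw [if_neg (fun hh => hW hh.2.2), zero_add]
        push Not at hW
        calc (((n - #(WW A i c d) : ℕ) : ℝ)) ^ M ≤ (((n - T : ℕ) : ℝ)) ^ M := by
              apply pow_le_pow_left₀ (Nat.cast_nonneg _)
              exact_mod_cast Nat.sub_le_sub_left hW n
          _ ≤ Q := pow_sub_le hn M T hT
    · have e : ∑ ω : Fin M → Fin n,
          (if (A i c = true ∧ c < d ∧ A i d = true) ∧ (∀ a, ω a ∉ WW A i c d)
            then (1 : ℝ) else 0) = 0 := by
        apply Finset.sum_eq_zero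
        intro ω _
        rw [if_neg (fun hh => h hh.1)]
      rw [e]
      have : (0 : ℝ) ≤ (if A i c = true ∧ A i d = true ∧ #(WW A i c d) < T
          then (n : ℝ) ^ M else 0) := by
        split_ifs
        · positivity
        · exact le_rfl
      linarith
  have early : ∀ c d : Fin m,
      ∑ i : Fin n, (if A i c = true ∧ A i d = true ∧ #(WW A i c d) < T then (n : ℝ) ^ M else 0)
        ≤ T * (n : ℝ) ^ M := by
    intro c d
    rw [← Finset.sum_filter, Finset.sum_const, nsmul_eq_mul]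
    apply mul_le_mul_of_nonneg_right _ (by positivity)
    exact_mod_cast early_le A T c d
  calc ∑ ω : Fin M → Fin n, ∑ i, (UU A (RepOf ω) i : ℝ)
      = ∑ ω : Fin M → Fin n, ∑ i : Fin n, ∑ c : Fin m, ∑ d : Fin m,
        (if (A i c = true ∧ c < d ∧ A i d = true) ∧ (∀ a, ω a ∉ WW A i c d)
          then (1 : ℝ) else 0) := by
        apply Finset.sum_congr rfl
        intro ω _
        apply Finset.sum_congr rfl
        intro i _
        exact UU_cast A ω i
    _ = ∑ c : Fin m, ∑ d : Fin m, ∑ i : Fin n, ∑ ω : Fin M → Fin n,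
        (if (A i c = true ∧ c < d ∧ A i d = true) ∧ (∀ a, ω a ∉ WW A i c d)
          then (1 : ℝ) else 0) := by
        rw [Finset.sum_comm]
        -- now ∑ i ∑ ω ∑ c ∑ d
        have s1 : ∀ i : Fin n, ∑ ω : Fin M → Fin n, ∑ c : Fin m, ∑ d : Fin m,
            (if (A i c = true ∧ c < d ∧ A i d = true) ∧ (∀ a, ω a ∉ WW A i c d)
              then (1 : ℝ) else 0)
            = ∑ c : Fin m, ∑ d : Fin m, ∑ ω : Fin M → Fin n,
            (if (A i c = true ∧ c < d ∧ A i d = true) ∧ (∀ a, ω a ∉ WW A i c d)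
              then (1 : ℝ) else 0) := by
          intro i
          rw [Finset.sum_comm]
          apply Finset.sum_congr rfl
          intro c _
          rw [Finset.sum_comm]
        simp_rw [s1]
        rw [Finset.sum_comm]
        apply Finset.sum_congr rfl
        intro c _
        rw [Finset.sum_comm]
    _ ≤ ∑ c : Fin m, ∑ d : Fin m, ∑ i : Fin n,
        ((if A i c = true ∧ A i d = true ∧ #(WW A i c d) < T then (n : ℝ) ^ M else 0) + Q) :=
        Finset.sum_le_sum (fun c _ => Finset.sum_le_sum (fun d _ =>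
          Finset.sum_le_sum (fun i _ => inner i c d)))
    _ ≤ ∑ c : Fin m, ∑ d : Fin m, (T * (n : ℝ) ^ M + n * Q) := by
        apply Finset.sum_le_sum
        intro c _
        apply Finset.sum_le_sum
        intro d _
        rw [Finset.sum_add_distrib]
        have := early c d
        simp only [Finset.sum_const, Finset.card_univ, Fintype.card_fin, nsmul_eq_mul]
        linarith
    _ = ((m : ℝ) ^ 2 * T + n * (m : ℝ) ^ 2 / (1 + M * T / n)) * (n : ℝ) ^ M := by
        simp only [Finset.sum_const, Finset.card_univ, Fintype.card_fin, nsmul_eq_mul]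
        rw [hQ]
        ring

end Vale.Agent.Lib.P037L
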