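import Vale.Agent.Lib.P037L.CoreL
import Vale.Agent.Lib.P037.AllTwo

namespace Vale.Agent.Lib.P037L
open Finset
open Vale.Agent.Lib.P037
variable {n : ℕ}

theorem isCopy_patL_iff (A : Matrix (Fin n) (Fin n) Bool) (r c : Fin 2 → Fin n) :
    IsCopy patL0 A r c ↔ (r 0 < r 1 ∧ c 0 < c 1 ∧ A (r 0) (c 0) = true ∧ A (r 0) (c 1) = true ∧
      A (r 1) (c 0) = true ∧ A (r 1) (c 1) = false) := by
  unfold IsCopy
  rw [strictMono_two, strictMono_two]
  simp only [Fin.forall_fin_two, patL0]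
  simp
  tauto

theorem numCopies_patL (A : Matrix (Fin n) (Fin n) Bool) :
    numCopies patL0 A = cntL (fun i j => A i j) := by
  classical
  unfold numCopies cntL
  rw [Nat.card_eq_fintype_card, Fintype.card_subtype]
  apply Finset.card_equiv ((finTwoArrowEquiv (Fin n)).prodCongr (finTwoArrowEquiv (Fin n)))
  intro p
  simp only [Finset.mem_filter, Finset.mem_univ, true_and, isCopy_patL_iff]
  rfl

theorem isFree_patL_iff (A : Matrix (Fin n) (Fin n) Bool) :
    IsFree patL0 A ↔ LFree (fun i j => A i j) := by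
  unfold IsFree LFree
  constructor
  · intro h x y c d hxy hcd hh
    apply h ![x, y] ![c, d]
    rw [isCopy_patL_iff]
    exact ⟨hxy, hcd, hh⟩
  · intro h r c hc
    rw [isCopy_patL_iff] at hc
    exact h _ _ _ _ hc.1 hc.2.1 hc.2.2

theorem explicit_patL (n : ℕ) (hn : 1 ≤ n) (ε : ℝ) (hε : 0 < ε) (hε1 : ε < 1)
    (A : Matrix (Fin n) (Fin n) Bool) (hA : ε ≤ distFree patL0 A) :
    (1 / 2 ^ 200) * ε ^ 36 * (n : ℝ) ^ 4 ≤ numCopies patL0 A := by
  by_contra hcon
  push Not at hcon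
  have hn0 : 0 < n := hn
  have hnR : (0 : ℝ) < n := by exact_mod_cast hn0
  rw [numCopies_patL] at hcon
  obtain ⟨B, hB1, hB2⟩ := coreL hn0 (fun i j => A i j) ε hε hε1 hcon
  have hmem : numDiff A (Matrix.of B) ∈
      {d : ℕ | ∃ B : Matrix (Fin n) (Fin n) Bool, IsFree patL0 B ∧ numDiff A B = d} :=
    ⟨Matrix.of B, (isFree_patL_iff _).2 hB1, rfl⟩
  have hle : sInf {d : ℕ | ∃ B : Matrix (Fin n) (Fin n) Bool, IsFree patL0 B ∧ numDiff A B = d}
      ≤ numDiff A (Matrix.of B) := Nat.sInf_le hmem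
  have hd' : (numDiff A (Matrix.of B) : ℝ) < ε * (n : ℝ) ^ 2 := by
    rw [numDiff_eq_hd]
    exact hB2
  have : distFree patL0 A < ε := by
    unfold distFree
    rw [div_lt_iff₀ (by positivity)]
    calc ((sInf {d : ℕ | ∃ B : Matrix (Fin n) (Fin n) Bool, IsFree patL0 B ∧ numDiff A B = d} : ℕ) : ℝ)
        ≤ (numDiff A (Matrix.of B) : ℝ) := by exact_mod_cast hle
      _ < ε * (n : ℝ) ^ 2 := hd'
  linarith

theorem polyRemoval_patL : PolyRemoval patL0 := by
  refine ⟨1 / 2 ^ 200, 36, by positivity, by norm_num, ?_⟩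
  intro n hn ε hε hε1 A hA
  have e36 : ε ^ (36 : ℝ) = ε ^ (36 : ℕ) := by
    rw [← Real.rpow_natCast]
    norm_num
  rw [e36]
  exact explicit_patL n hn ε hε hε1 A hA

/-- every `2 × 2` pattern has the polynomial removal property. -/
theorem polyRemoval_two (H : Matrix (Fin 2) (Fin 2) Bool) : PolyRemoval H :=
  polyRemoval_all_two polyRemoval_patL H

theorem polyRemoval_two_by_two : ∀ H : Matrix (Fin 2) (Fin 2) Bool, PolyRemoval H :=
  polyRemoval_two

end Vale.Agent.Lib.P037L
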