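import Vale.Agent.Lib.P037L.Total
import Vale.Agent.Lib.P037L.AvgPQ
import Vale.Agent.Lib.P037L.AvgU

namespace Vale.Agent.Lib.P037L
open Finset
open Vale.Agent.Lib.P037 (hd)
variable {n m : ℕ}

theorem exists_omega (hn : 0 < n) (A : Fin n → Fin m → Bool) (M k v T : ℕ) (hk : 1 ≤ k)
    (hv : 1 ≤ v) (hT : T ≤ n) (lam Y : ℝ) (hlam : 0 < lam)
    (hY : ((m : ℝ) ^ 2 * T + n * (m : ℝ) ^ 2 / (1 + M * T / n)) / v
        + m * ((M : ℝ) * cntL A / n) / (k : ℝ) ^ 2 + lam * ((M : ℝ) ^ 2 * cntL A / (n : ℝ) ^ 2) ≤ Y) :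
    ∃ ω : Fin M → Fin n, (∑ i, (UU A (RepOf ω) i : ℝ)) / v + m * (QQ A ω : ℝ) / (k : ℝ) ^ 2
      + lam * (PP A ω : ℝ) ≤ Y := by
  have hne : Nonempty (Fin n) := ⟨⟨0, hn⟩⟩
  have hvR : (0 : ℝ) < v := by exact_mod_cast hv
  have hkR : (0 : ℝ) < (k : ℝ) ^ 2 := by
    have : (0 : ℝ) < k := by exact_mod_cast hk
    positivity
  have hpow : (0 : ℝ) ≤ (n : ℝ) ^ M := by positivity
  have h := Vale.Agent.Lib.P037.exists_le_avg (fun _ : Fin M => (univ : Finset (Fin n)))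
    (fun _ => Finset.univ_nonempty)
    (fun ω => (∑ i, (UU A (RepOf ω) i : ℝ)) / v + m * (QQ A ω : ℝ) / (k : ℝ) ^ 2
      + lam * (PP A ω : ℝ)) Y
  rw [card_fun_real, Fintype.piFinset_univ] at h
  have hsum : ∑ ω : Fin M → Fin n, ((∑ i, (UU A (RepOf ω) i : ℝ)) / v
      + m * (QQ A ω : ℝ) / (k : ℝ) ^ 2 + lam * (PP A ω : ℝ)) ≤ Y * (n : ℝ) ^ M := by
    have e : ∑ ω : Fin M → Fin n, ((∑ i, (UU A (RepOf ω) i : ℝ)) / v
      + m * (QQ A ω : ℝ) / (k : ℝ) ^ 2 + lam * (PP A ω : ℝ))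
      = (∑ ω : Fin M → Fin n, ∑ i, (UU A (RepOf ω) i : ℝ)) / v
        + m * (∑ ω : Fin M → Fin n, (QQ A ω : ℝ)) / (k : ℝ) ^ 2
        + lam * ∑ ω : Fin M → Fin n, (PP A ω : ℝ) := by
      rw [Finset.sum_add_distrib, Finset.sum_add_distrib, Finset.sum_div, Finset.mul_sum,
        Finset.mul_sum, Finset.sum_div]
    rw [e, sum_QQ hn A M]
    have h1 := div_le_div_of_nonneg_right (sum_UU hn A M T hT) hvR.le
    have h2 := mul_le_mul_of_nonneg_left (sum_PP hn A M) hlam.le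
    have h3 := mul_le_mul_of_nonneg_right hY hpow
    calc _ ≤ ((m : ℝ) ^ 2 * T + n * (m : ℝ) ^ 2 / (1 + M * T / n)) * (n : ℝ) ^ M / v
          + m * ((M : ℝ) * cntL A / n * (n : ℝ) ^ M) / (k : ℝ) ^ 2
          + lam * ((M : ℝ) ^ 2 * cntL A / (n : ℝ) ^ 2 * (n : ℝ) ^ M) := by linarith
      _ = (((m : ℝ) ^ 2 * T + n * (m : ℝ) ^ 2 / (1 + M * T / n)) / v
        + m * ((M : ℝ) * cntL A / n) / (k : ℝ) ^ 2
        + lam * ((M : ℝ) ^ 2 * cntL A / (n : ℝ) ^ 2)) * (n : ℝ) ^ M := by ring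
      _ ≤ _ := h3
  obtain ⟨ω, -, hω⟩ := h hsum
  exact ⟨ω, hω⟩

/-- ABSTRACT PARAMETERS.  `Φ ω = (∑_i UU)/v + m * QQ ω / k^2 + Λ * PP ω`; its average is at most `Y`
(`sum_UU, sum_QQ, sum_PP`), so some `ω` has `Φ ω ≤ Y` (`exists_le_avg`, `S = fun _ => univ`).
Then `Λ * PP ω ≤ Y < Λ (k*k+1)` gives `PP ω ≤ k*k`, so `Good` (`good_of_PP`), `card_ZZ_le`,
`card_RepOf_le`, `atyp_le`, `total_cost`. -/
theorem L_abstract (hn : 0 < n) (A : Fin n → Fin m → Bool) (M k v T : ℕ) (hk : 1 ≤ k) (hv : 1 ≤ v)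
    (hT : T ≤ n) (lam Y : ℝ) (hlam : 0 < lam)
    (hY : ((m : ℝ) ^ 2 * T + n * (m : ℝ) ^ 2 / (1 + M * T / n)) / v
        + m * ((M : ℝ) * cntL A / n) / (k : ℝ) ^ 2 + lam * ((M : ℝ) ^ 2 * cntL A / (n : ℝ) ^ 2) ≤ Y)
    (hfin : Y < lam * ((k : ℝ) * k + 1)) :
    ∃ B : Fin n → Fin m → Bool, LFree B ∧
      (hd A B : ℝ) ≤ n * (2 * ((M : ℝ) ^ 2 * (4 * k + 1)) + 2 * ((M : ℝ) * k) + v) + Y := by
  obtain ⟨ω, hω⟩ := exists_omega hn A M k v T hk hv hT lam Y hlam hY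
  have hvR : (0 : ℝ) < v := by exact_mod_cast hv
  have hkR : (0 : ℝ) < (k : ℝ) ^ 2 := by
    have : (0 : ℝ) < k := by exact_mod_cast hk
    positivity
  have t1 : (0 : ℝ) ≤ (∑ i, (UU A (RepOf ω) i : ℝ)) / v := by positivity
  have t2 : (0 : ℝ) ≤ m * (QQ A ω : ℝ) / (k : ℝ) ^ 2 := by positivity
  have t3 : (0 : ℝ) ≤ lam * (PP A ω : ℝ) := by positivity
  have hPP : PP A ω ≤ k * k := by
    have h1 : lam * (PP A ω : ℝ) < lam * ((k : ℝ) * k + 1) := by linarith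
    have h2 : (PP A ω : ℝ) < (k : ℝ) * k + 1 := lt_of_mul_lt_mul_left h1 hlam.le
    have h3 : PP A ω < k * k + 1 := by exact_mod_cast h2
    omega
  have hg := good_of_PP A k ω hPP
  have hZ := card_ZZ_le A k hk (RepOf ω) hg
  have hR := card_RepOf_le ω
  have hZ2 : #(ZZ A k (RepOf ω)) ≤ M ^ 2 * (4 * k + 1) :=
    hZ.trans (Nat.mul_le_mul_right _ (Nat.pow_le_pow_left hR 2))
  have hZR : (#(ZZ A k (RepOf ω)) : ℝ) ≤ (M : ℝ) ^ 2 * (4 * k + 1) := by exact_mod_cast hZ2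
  have hRR : (#(RepOf ω) : ℝ) ≤ (M : ℝ) := by exact_mod_cast hR
  have hRk : (#(RepOf ω) : ℝ) * k ≤ (M : ℝ) * k :=
    mul_le_mul_of_nonneg_right hRR (Nat.cast_nonneg k)
  obtain ⟨B, hB1, hB2⟩ := total_cost A k hk (RepOf ω) v hv
  refine ⟨B, hB1, hB2.trans ?_⟩
  have ha := atyp_le A k hk ω
  have ha2 := mul_le_mul_of_nonneg_left ha (Nat.cast_nonneg (α := ℝ) m)
  have ha3 : (m : ℝ) * ((QQ A ω : ℝ) / (k : ℝ) ^ 2) = m * (QQ A ω : ℝ) / (k : ℝ) ^ 2 := by ring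
  have hn1 : (n : ℝ) * (2 * #(ZZ A k (RepOf ω)) + 2 * ((#(RepOf ω) : ℝ) * k) + v)
      ≤ n * (2 * ((M : ℝ) ^ 2 * (4 * k + 1)) + 2 * ((M : ℝ) * k) + v) :=
    mul_le_mul_of_nonneg_left (by linarith) (Nat.cast_nonneg n)
  linarith

theorem div_bounds (n D : ℕ) (hD : 0 < D) (h : D ≤ n) :
    (1 : ℝ) ≤ ((n / D : ℕ) : ℝ) ∧ ((n / D : ℕ) : ℝ) * D ≤ n ∧ (n : ℝ) ≤ 2 * ((n / D : ℕ) : ℝ) * D := by
  have h1 : 1 ≤ n / D := (Nat.one_le_div_iff hD).mpr h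
  have h2 : n / D * D ≤ n := Nat.div_mul_le_self n D
  have h3 : n < (n / D + 1) * D := by
    have := Nat.lt_div_mul_add hD (a := n)
    nlinarith
  have h4 : n ≤ 2 * (n / D) * D := by nlinarith
  refine ⟨by exact_mod_cast h1, by exact_mod_cast h2, by exact_mod_cast h4⟩

theorem numL (x K v T k N M : ℝ) (hK : 1 ≤ K) (hx : 0 < x) (hM : M = 2 ^ 17 * K ^ 4)
    (hv1 : 1 ≤ v) (hv2 : v * (8 * K) ≤ x) (hv3 : x ≤ 2 * v * (8 * K))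
    (hT2 : T * (256 * K ^ 2) ≤ x) (hT3 : x ≤ 2 * T * (256 * K ^ 2))
    (hk1 : 1 ≤ k) (hk2 : k * (2 ^ 41 * K ^ 9) ≤ x) (hk3 : x ≤ 2 * k * (2 ^ 41 * K ^ 9))
    (hN0 : 0 ≤ N) (hN : N * (2 ^ 164 * K ^ 36) < x ^ 4) :
    (x ^ 2 * T + x * x ^ 2 / (1 + M * T / x)) / v + x * (M * N / x) / k ^ 2
      + (x ^ 2 / (4 * K) / k ^ 2) * (M ^ 2 * N / x ^ 2) ≤ x ^ 2 / (4 * K) ∧
    x * (2 * (M ^ 2 * (4 * k + 1)) + 2 * (M * k) + v) + x ^ 2 / (4 * K) ≤ (1 / 2) * (x ^ 2 / K) := by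
  have hK0 : 0 < K := by linarith
  have hv0 : 0 < v := by linarith
  have hk0 : 0 < k := by linarith
  have hM0 : 0 < M := by rw [hM]; positivity
  -- term 1a
  have t1a : x ^ 2 * T / v ≤ x ^ 2 / (16 * K) := by
    rw [div_le_div_iff₀ hv0 (by positivity)]
    have h : 16 * K * T ≤ v := by
      have h1 : T * (256 * K ^ 2) ≤ 2 * v * (8 * K) := hT2.trans hv3
      have h2 : (16 * K) * (16 * K * T) ≤ (16 * K) * v := by nlinarith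
      exact le_of_mul_le_mul_left h2 (by positivity)
    have : x ^ 2 * (16 * K * T) ≤ x ^ 2 * v := mul_le_mul_of_nonneg_left h (by positivity)
    nlinarith
  -- term 1b
  have hMT : 2 ^ 8 * K ^ 2 ≤ 1 + M * T / x := by
    have h1 : 2 ^ 8 * K ^ 2 ≤ M * T / x := by
      rw [le_div_iff₀ hx, hM]
      have : 2 ^ 8 * K ^ 2 * x ≤ 2 ^ 8 * K ^ 2 * (2 * T * (256 * K ^ 2)) :=
        mul_le_mul_of_nonneg_left hT3 (by positivity)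
      nlinarith
    linarith
  have t1b : x * x ^ 2 / (1 + M * T / x) / v ≤ x ^ 2 / (16 * K) := by
    have h1 : x * x ^ 2 / (1 + M * T / x) ≤ x * x ^ 2 / (2 ^ 8 * K ^ 2) :=
      div_le_div_of_nonneg_left (by positivity) (by positivity) hMT
    have h2 : x * x ^ 2 / (2 ^ 8 * K ^ 2) / v ≤ x ^ 2 / (16 * K) := by
      rw [div_div, div_le_div_iff₀ (by positivity) (by positivity)]
      have : x ^ 2 * K * 16 * x ≤ x ^ 2 * K * 16 * (2 * v * (8 * K)) :=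
        mul_le_mul_of_nonneg_left hv3 (by positivity)
      nlinarith
    exact le_trans (div_le_div_of_nonneg_right h1 hv0.le) h2
  -- lower bound on x^2 k^2
  have hxk : x ^ 4 ≤ x ^ 2 * k ^ 2 * (2 ^ 84 * K ^ 18) := by
    have h1 : x ^ 2 ≤ (2 * k * (2 ^ 41 * K ^ 9)) ^ 2 := pow_le_pow_left₀ hx.le hk3 2
    have h2 : x ^ 2 * x ^ 2 ≤ x ^ 2 * (2 * k * (2 ^ 41 * K ^ 9)) ^ 2 :=
      mul_le_mul_of_nonneg_left h1 (by positivity)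
    calc x ^ 4 = x ^ 2 * x ^ 2 := by ring
      _ ≤ _ := h2
      _ = _ := by ring
  have hKp : ∀ a b : ℕ, a ≤ b → K ^ a ≤ K ^ b := fun a b h => pow_le_pow_right₀ hK h
  -- 2^120 K^26 N * (2^84 K^18)⁻¹ ...
  have hNb : N * (2 ^ 36 * K ^ 8) * (2 ^ 84 * K ^ 18) ≤ x ^ 4 := by
    have h1 : N * (2 ^ 36 * K ^ 8) * (2 ^ 84 * K ^ 18) = N * (2 ^ 120 * K ^ 26) := by ring
    rw [h1]
    have h2 : (2:ℝ) ^ 120 * K ^ 26 ≤ 2 ^ 164 * K ^ 36 :=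
      mul_le_mul (by norm_num) (hKp 26 36 (by norm_num)) (by positivity) (by positivity)
    exact le_trans (mul_le_mul_of_nonneg_left h2 hN0) hN.le
  have hNc : N * (2 ^ 36 * K ^ 8) ≤ x ^ 2 * k ^ 2 := by
    have := hNb.trans hxk
    exact le_of_mul_le_mul_right this (by positivity)
  have t2 : x * (M * N / x) / k ^ 2 ≤ x ^ 2 / (16 * K) := by
    have e : x * (M * N / x) = M * N := by field_simp
    rw [e, div_le_div_iff₀ (by positivity) (by positivity), hM]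
    have h1 : 2 ^ 17 * K ^ 4 * N * (16 * K) = N * (2 ^ 21 * K ^ 5) := by ring
    rw [h1]
    have h2 : (2:ℝ) ^ 21 * K ^ 5 ≤ 2 ^ 36 * K ^ 8 :=
      mul_le_mul (by norm_num) (hKp 5 8 (by norm_num)) (by positivity) (by positivity)
    exact le_trans (mul_le_mul_of_nonneg_left h2 hN0) hNc
  have t3 : (x ^ 2 / (4 * K) / k ^ 2) * (M ^ 2 * N / x ^ 2) ≤ x ^ 2 / (16 * K) := by
    have e : (x ^ 2 / (4 * K) / k ^ 2) * (M ^ 2 * N / x ^ 2) = M ^ 2 * N / (4 * K * k ^ 2) := by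
      field_simp
    rw [e, div_le_div_iff₀ (by positivity) (by positivity), hM]
    have h1 : (2 ^ 17 * K ^ 4) ^ 2 * N * (16 * K) = (N * (2 ^ 36 * K ^ 8)) * (4 * K) := by ring
    rw [h1]
    have := mul_le_mul_of_nonneg_right hNc (by positivity : (0:ℝ) ≤ 4 * K)
    nlinarith
  constructor
  · have e : (x ^ 2 * T + x * x ^ 2 / (1 + M * T / x)) / v
        = x ^ 2 * T / v + x * x ^ 2 / (1 + M * T / x) / v := by rw [add_div]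
    have e2 : x ^ 2 / (4 * K) = 4 * (x ^ 2 / (16 * K)) := by field_simp; ring
    rw [e]
    linarith [e2]
  · have h1 : M ^ 2 * k * (128 * K) ≤ x := by
      rw [hM]
      calc (2 ^ 17 * K ^ 4) ^ 2 * k * (128 * K) = k * (2 ^ 41 * K ^ 9) := by ring
        _ ≤ x := hk2
    have hM1 : 1 ≤ M := by
      rw [hM]
      have : (1:ℝ) ≤ K ^ 4 := one_le_pow₀ hK
      nlinarith
    have h2 : 2 * (M ^ 2 * (4 * k + 1)) + 2 * (M * k) ≤ 12 * (M ^ 2 * k) := by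
      have a1 : M ^ 2 * 1 ≤ M ^ 2 * k := mul_le_mul_of_nonneg_left hk1 (by positivity)
      have a2 : M * k ≤ M ^ 2 * k := by
        have : M ≤ M ^ 2 := by nlinarith
        exact mul_le_mul_of_nonneg_right this hk0.le
      nlinarith
    have h3 : 12 * (M ^ 2 * k) ≤ x / (8 * K) := by
      rw [le_div_iff₀ (by positivity)]
      nlinarith
    have h4 : v ≤ x / (8 * K) := by
      rw [le_div_iff₀ (by positivity)]
      exact hv2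
    have h5 : x * (2 * (M ^ 2 * (4 * k + 1)) + 2 * (M * k) + v) ≤ x * (x / (8 * K) + x / (8 * K)) :=
      mul_le_mul_of_nonneg_left (by linarith) hx.le
    have e : x * (x / (8 * K) + x / (8 * K)) + x ^ 2 / (4 * K) = (1 / 2) * (x ^ 2 / K) := by
      field_simp; ring
    linarith

/-- CORE THEOREM for `L`.  Numerics (m = n): if `cntL A = 0` take `B = A`.  Otherwise
`1 ≤ cntL A < ε^36 n^4 / 2^200` forces `n ≥ 2^50/ε^9`.  `M = ⌈2^17/ε^4⌉ ≤ 2^18/ε^4`,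
`v = ⌊ε n/8⌋`, `T = ⌊ε^2 n/256⌋`, `k = ⌊ε n/(96 M^2)⌋ ≥ ε^9 n/2^44`, `Y = ε n^2/4`,
`lam = ε n^2/(4 k^2)`.  Each of the four terms of `hY` is at most `ε n^2/16`;
`n (2 M^2 (4k+1) + 2 M k) ≤ 12 n M^2 k ≤ ε n^2/8`, `n v ≤ ε n^2/8`. -/
theorem coreL (hn : 0 < n) (A : Fin n → Fin n → Bool) (ε : ℝ) (hε : 0 < ε) (hε1 : ε < 1)
    (hN : (cntL A : ℝ) < (1 / 2 ^ 200) * ε ^ 36 * (n : ℝ) ^ 4) :
    ∃ B : Fin n → Fin n → Bool, LFree B ∧ (hd A B : ℝ) < ε * (n : ℝ) ^ 2 := by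
  classical
  have hx0 : (0 : ℝ) < n := by exact_mod_cast hn
  by_cases h0 : cntL A = 0
  · refine ⟨A, ?_, ?_⟩
    · intro x y c d hxy hcd h
      unfold cntL at h0
      rw [card_eq_zero] at h0
      have hmem : ((x, y), (c, d)) ∈ ({p : (Fin n × Fin n) × (Fin n × Fin n) |
          p.1.1 < p.1.2 ∧ p.2.1 < p.2.2 ∧
          A p.1.1 p.2.1 = true ∧ A p.1.1 p.2.2 = true ∧ A p.1.2 p.2.1 = true ∧
          A p.1.2 p.2.2 = false} : Finset _) := by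
        simp only [mem_filter, mem_univ, true_and]
        exact ⟨hxy, hcd, h⟩
      rw [h0] at hmem
      exact absurd hmem (notMem_empty _)
    · have : hd A A = 0 := by simp [hd]
      rw [this]
      simp only [Nat.cast_zero]
      positivity
  have hN1 : (1 : ℝ) ≤ cntL A := by exact_mod_cast Nat.one_le_iff_ne_zero.mpr h0
  obtain ⟨K, hKdef⟩ : ∃ K : ℕ, K = ⌈1 / ε⌉₊ := ⟨_, rfl⟩
  have hinv : 1 < 1 / ε := by
    rw [lt_div_iff₀ hε]; linarith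
  have hK1 : 1 / ε ≤ (K : ℝ) := by rw [hKdef]; exact Nat.le_ceil _
  have hK2 : (K : ℝ) < 1 / ε + 1 := by
    rw [hKdef]; exact Nat.ceil_lt_add_one (by positivity)
  have hKge : (1 : ℝ) ≤ K := by linarith
  have hK0 : (0 : ℝ) < K := by linarith
  have hεK : ε * K ≤ 2 := by
    have h1 : ε * K ≤ ε * (1 / ε + 1) := mul_le_mul_of_nonneg_left hK2.le hε.le
    have h2 : ε * (1 / ε + 1) = 1 + ε := by field_simp
    linarith
  have hεK1 : 1 ≤ ε * K := by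
    have h1 : ε * (1 / ε) ≤ ε * K := mul_le_mul_of_nonneg_left hK1 hε.le
    have h2 : ε * (1 / ε) = 1 := by field_simp
    linarith
  have hNK : (cntL A : ℝ) * (2 ^ 164 * (K : ℝ) ^ 36) < (n : ℝ) ^ 4 := by
    have h1 : (cntL A : ℝ) * (2 ^ 164 * (K : ℝ) ^ 36)
        < (1 / 2 ^ 200) * ε ^ 36 * (n : ℝ) ^ 4 * (2 ^ 164 * (K : ℝ) ^ 36) :=
      mul_lt_mul_of_pos_right hN (by positivity)
    have h2 : (1 / 2 ^ 200) * ε ^ 36 * (n : ℝ) ^ 4 * (2 ^ 164 * (K : ℝ) ^ 36)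
        = (ε * K) ^ 36 * ((n : ℝ) ^ 4 / 2 ^ 36) := by
      rw [mul_pow]; ring
    have h3 : (ε * K) ^ 36 ≤ 2 ^ 36 := pow_le_pow_left₀ (by positivity) hεK 36
    have h4 : (ε * K) ^ 36 * ((n : ℝ) ^ 4 / 2 ^ 36) ≤ 2 ^ 36 * ((n : ℝ) ^ 4 / 2 ^ 36) :=
      mul_le_mul_of_nonneg_right h3 (by positivity)
    have h5 : (2 : ℝ) ^ 36 * ((n : ℝ) ^ 4 / 2 ^ 36) = (n : ℝ) ^ 4 := by field_simp
    linarith
  have hbig : 2 ^ 41 * (K : ℝ) ^ 9 ≤ n := by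
    by_contra hcon
    have hcon' : (n : ℝ) ≤ 2 ^ 41 * (K : ℝ) ^ 9 := (not_le.mp hcon).le
    have h4 : (n : ℝ) ^ 4 ≤ (2 ^ 41 * (K : ℝ) ^ 9) ^ 4 := pow_le_pow_left₀ hx0.le hcon' 4
    have e : ((2 : ℝ) ^ 41 * (K : ℝ) ^ 9) ^ 4 = 2 ^ 164 * (K : ℝ) ^ 36 := by ring
    have h5 : 1 * (2 ^ 164 * (K : ℝ) ^ 36) ≤ (cntL A : ℝ) * (2 ^ 164 * (K : ℝ) ^ 36) :=
      mul_le_mul_of_nonneg_right hN1 (by positivity)
    linarith
  have hKp : ∀ a b : ℕ, a ≤ b → (K : ℝ) ^ a ≤ (K : ℝ) ^ b := fun a b h => pow_le_pow_right₀ hKge h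
  have hb1 : 8 * (K : ℝ) ≤ n := by
    have h1 : (K : ℝ) ^ 1 ≤ (K : ℝ) ^ 9 := hKp 1 9 (by norm_num)
    have h2 : (0 : ℝ) ≤ (K : ℝ) ^ 9 := by positivity
    rw [pow_one] at h1
    nlinarith
  have hb2 : 256 * (K : ℝ) ^ 2 ≤ n := by
    have h1 : (K : ℝ) ^ 2 ≤ (K : ℝ) ^ 9 := hKp 2 9 (by norm_num)
    have h2 : (0 : ℝ) ≤ (K : ℝ) ^ 9 := by positivity
    nlinarith
  have hKn : 0 < K := by exact_mod_cast hK0
  obtain ⟨hk1, hk2, hk3⟩ := div_bounds n (2 ^ 41 * K ^ 9) (by positivity) (by exact_mod_cast hbig)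
  obtain ⟨hv1, hv2, hv3⟩ := div_bounds n (8 * K) (by positivity) (by exact_mod_cast hb1)
  obtain ⟨_, hT2, hT3⟩ := div_bounds n (256 * K ^ 2) (by positivity) (by exact_mod_cast hb2)
  obtain ⟨k, hkdef⟩ : ∃ k : ℕ, k = n / (2 ^ 41 * K ^ 9) := ⟨_, rfl⟩
  obtain ⟨v, hvdef⟩ : ∃ v : ℕ, v = n / (8 * K) := ⟨_, rfl⟩
  obtain ⟨T, hTdef⟩ : ∃ T : ℕ, T = n / (256 * K ^ 2) := ⟨_, rfl⟩
  obtain ⟨M, hMdef⟩ : ∃ M : ℕ, M = 2 ^ 17 * K ^ 4 := ⟨_, rfl⟩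
  rw [← hkdef] at hk1 hk2 hk3
  rw [← hvdef] at hv1 hv2 hv3
  rw [← hTdef] at hT2 hT3
  have c1 : ((2 ^ 41 * K ^ 9 : ℕ) : ℝ) = 2 ^ 41 * (K : ℝ) ^ 9 := by push_cast; ring
  rw [c1] at hk2 hk3
  push_cast at hv2 hv3 hT2 hT3
  have hMr : (M : ℝ) = 2 ^ 17 * (K : ℝ) ^ 4 := by rw [hMdef]; push_cast; ring
  have hTn : T ≤ n := by rw [hTdef]; exact Nat.div_le_self _ _
  obtain ⟨hA, hB⟩ := numL (n : ℝ) K v T k (cntL A) M hKge hx0 hMr hv1 hv2 hv3 hT2 hT3 hk1 hk2 hk3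
    (by positivity) hNK
  have hk0 : (0 : ℝ) < k := by linarith
  have hY0 : (0 : ℝ) < (n : ℝ) ^ 2 / (4 * K) := by positivity
  obtain ⟨B, hB1, hB2⟩ := L_abstract hn A M k v T (by exact_mod_cast hk1) (by exact_mod_cast hv1) hTn
    ((n : ℝ) ^ 2 / (4 * K) / (k : ℝ) ^ 2) ((n : ℝ) ^ 2 / (4 * K)) (by positivity) hA
    (by
      have e : (n : ℝ) ^ 2 / (4 * K) / (k : ℝ) ^ 2 * ((k : ℝ) * k + 1)
          = (n : ℝ) ^ 2 / (4 * K) + (n : ℝ) ^ 2 / (4 * K) / (k : ℝ) ^ 2 := by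
        field_simp
      rw [e]
      have : (0 : ℝ) < (n : ℝ) ^ 2 / (4 * K) / (k : ℝ) ^ 2 := by positivity
      linarith)
  refine ⟨B, hB1, ?_⟩
  have h6 : (n : ℝ) ^ 2 / K ≤ ε * (n : ℝ) ^ 2 := by
    rw [div_le_iff₀ hK0]
    have : (n : ℝ) ^ 2 * 1 ≤ (n : ℝ) ^ 2 * (ε * K) := mul_le_mul_of_nonneg_left hεK1 (by positivity)
    nlinarith
  have h7 : (0 : ℝ) < (n : ℝ) ^ 2 / K := by positivity
  linarith

end Vale.Agent.Lib.P037L
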