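import Vale.Agent.Lib.P037L.LDefs

namespace Vale.Agent.Lib.P037L
open Finset
variable {n m : ℕ}

theorem stp_mono (X : Fin n → Finset (Fin m)) {t t' : ℕ} (h : t ≤ t') {c d : Fin m}
    (hs : Stp X t c d) : Stp X t' c d := by
  obtain ⟨x, hx, hc, hd, hlt⟩ := hs
  exact ⟨x, lt_of_lt_of_le hx h, hc, hd, hlt⟩

theorem up_mono (X : Fin n → Finset (Fin m)) {t t' : ℕ} (h : t ≤ t') {c d : Fin m}
    (hu : Up X t c d) : Up X t' c d := by
  induction hu with
  | refl => exact Relation.ReflTransGen.refl
  | tail _ h2 ih => exact Relation.ReflTransGen.tail ih (stp_mono X h h2)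

theorem up_le (X : Fin n → Finset (Fin m)) {t : ℕ} {c d : Fin m} (hu : Up X t c d) : c ≤ d := by
  induction hu with
  | refl => exact le_rfl
  | tail _ h2 ih =>
    obtain ⟨_, _, _, _, hlt⟩ := h2
    exact le_trans ih hlt.le

/-- successors of one column are pairwise linked -/
theorem stp_linear (X : Fin n → Finset (Fin m)) (hX : Exact X) {t : ℕ} {c d d' : Fin m}
    (h1 : Stp X t c d) (h2 : Stp X t c d') (hdd : d < d') : Stp X t d d' := by
  obtain ⟨x, hxt, hcx, hdx, hcd⟩ := h1
  obtain ⟨x', hxt', hcx', hdx', hcd'⟩ := h2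
  rcases lt_trichotomy x x' with hlt | heq | hgt
  · exact ⟨x', hxt', hX x x' hlt c d hcd hcx hdx hcx', hdx', hdd⟩
  · subst heq
    exact ⟨x, hxt, hdx, hdx', hdd⟩
  · exact ⟨x, hxt, hdx, hX x' x hgt c d' hcd' hcx' hdx' hcx, hdd⟩

theorem forest (X : Fin n → Finset (Fin m)) (hX : Exact X) (t : ℕ) :
    ∀ c d d' : Fin m, Up X t c d → Up X t c d' → d ≤ d' → Up X t d d' := by
  have key : ∀ N : ℕ, ∀ c : Fin m, m - c.val = N → ∀ d d' : Fin m, Up X t c d →
      Up X t c d' → d ≤ d' → Up X t d d' := by
    intro N
    induction N using Nat.strong_induction_on with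
    | _ N ih =>
      intro c hc d d' h1 h2 hdd
      rcases Relation.ReflTransGen.cases_head h1 with heq | ⟨c1, hs1, hr1⟩
      · subst heq; exact h2
      · have hc1d : c1 ≤ d := up_le X hr1
        have hcc1 : c < c1 := hs1.choose_spec.2.2.2
        rcases Relation.ReflTransGen.cases_head h2 with heq | ⟨c2, hs2, hr2⟩
        · exfalso
          subst heq
          exact absurd (lt_of_lt_of_le hcc1 (le_trans hc1d hdd)) (lt_irrefl _)
        · have hcc2 : c < c2 := hs2.choose_spec.2.2.2
          rcases lt_trichotomy c1 c2 with hlt | heq | hgt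
          · have hst := stp_linear X hX hs1 hs2 hlt
            refine ih (m - c1.val) ?_ c1 rfl d d' hr1 (Relation.ReflTransGen.head hst hr2) hdd
            have := c1.isLt
            have : c.val < c1.val := hcc1
            omega
          · subst heq
            refine ih (m - c1.val) ?_ c1 rfl d d' hr1 hr2 hdd
            have := c1.isLt
            have : c.val < c1.val := hcc1
            omega
          · have hst := stp_linear X hX hs2 hs1 hgt
            refine ih (m - c2.val) ?_ c2 rfl d d' (Relation.ReflTransGen.head hst hr1) hr2 hdd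
            have := c2.isLt
            have : c.val < c2.val := hcc2
            omega
  intro c d d' h1 h2 hdd
  exact key _ c rfl d d' h1 h2 hdd

/-- FOREST LEMMA: up-sets are chains. -/
theorem up_chain (X : Fin n → Finset (Fin m)) (hX : Exact X) (t : ℕ) {c a b : Fin m}
    (ha : Up X t c a) (hb : Up X t c b) (hab : a < b) : Up X t a b :=
  forest X hX t c a b ha hb hab.le

/-- EXACTNESS: `i < i'`, `c < d` in row `i`, `c` in row `i'`: `Up i c d` by `up_chain`, hence
`Up i' c d` by `up_mono`, hence `d` in row `i'` by transitivity. -/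
theorem build_LFree (X : Fin n → Finset (Fin m)) (hX : Exact X) (o : Fin n → Option (Fin m)) :
    LFree (build X o) := by
  classical
  intro x y c d hxy hcd hcon
  obtain ⟨h1, h2, h3, h4⟩ := hcon
  unfold build rowOf at h1 h2 h3 h4
  cases hox : o x with
  | none => simp [hox] at h1
  | some cx =>
    cases hoy : o y with
    | none => simp [hoy] at h3
    | some cy =>
      simp only [hox, decide_eq_true_eq] at h1 h2
      simp only [hoy, decide_eq_true_eq, decide_eq_false_iff_not] at h3 h4
      apply h4
      have hcd' : Up X (x : ℕ) c d := up_chain X hX _ h1 h2 hcd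
      have hcd'' : Up X (y : ℕ) c d := up_mono X (le_of_lt hxy) hcd'
      exact Relation.ReflTransGen.trans h3 hcd''

end Vale.Agent.Lib.P037L
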