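import Vale.Agent.Lib.P037.Defs

/-!
# P037: polynomial removal for the ordered 2×2 pattern `L = [[1,1],[1,0]]` — definitions
`R_x` = set of ones of row `x`.  Plan: sample a set `Rep` of rows, erase a small set `ZZ` of columns
so that the sampled rows are exactly `L`-free, let `Up t c d` be the reflexive transitive closure of
`c < d, both in a sampled row above row t`, and replace row `i` by an up-set `{d | Up i c0 d}`.
-/

namespace Vale.Agent.Lib.P037L

open Finset

variable {n m : ℕ}

/-- number of `L`-copies on the rows `x` (upper) and `y` (lower); no order condition on `x,y`. -/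
def ee (A : Fin n → Fin m → Bool) (x y : Fin n) : ℕ :=
  #{p : Fin m × Fin m | p.1 < p.2 ∧ A x p.1 = true ∧ A x p.2 = true ∧ A y p.1 = true ∧
      A y p.2 = false}

/-- number of ordered copies of `L = [[1,1],[1,0]]`. -/
def cntL (A : Fin n → Fin m → Bool) : ℕ :=
  #{p : (Fin n × Fin n) × (Fin m × Fin m) | p.1.1 < p.1.2 ∧ p.2.1 < p.2.2 ∧
      A p.1.1 p.2.1 = true ∧ A p.1.1 p.2.2 = true ∧ A p.1.2 p.2.1 = true ∧
      A p.1.2 p.2.2 = false}

/-- no ordered copy of `L`. -/
def LFree (A : Fin n → Fin m → Bool) : Prop :=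
  ∀ x y : Fin n, ∀ c d : Fin m, x < y → c < d →
    ¬ (A x c = true ∧ A x d = true ∧ A y c = true ∧ A y d = false)

/-- one step at time `t`: `c < d` lie together in a set `X x` with `x < t`. -/
def Stp (X : Fin n → Finset (Fin m)) (t : ℕ) (c d : Fin m) : Prop :=
  ∃ x : Fin n, (x : ℕ) < t ∧ c ∈ X x ∧ d ∈ X x ∧ c < d

/-- reflexive transitive closure of `Stp`. -/
def Up (X : Fin n → Finset (Fin m)) (t : ℕ) (c d : Fin m) : Prop :=
  Relation.ReflTransGen (Stp X t) c d

/-- the family `X` is exactly `L`-free. -/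
def Exact (X : Fin n → Finset (Fin m)) : Prop :=
  ∀ x y : Fin n, x < y → ∀ c d : Fin m, c < d → c ∈ X x → d ∈ X x → c ∈ X y → d ∈ X y

open Classical in
/-- the new row: empty, or the up-set of `c` at time `t`. -/
noncomputable def rowOf (X : Fin n → Finset (Fin m)) (t : ℕ) (o : Option (Fin m)) : Fin m → Bool :=
  fun d => match o with
    | none => false
    | some c => decide (Up X t c d)

/-- the new matrix. -/
noncomputable def build (X : Fin n → Finset (Fin m)) (o : Fin n → Option (Fin m)) :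
    Fin n → Fin m → Bool :=
  fun i => rowOf X (i : ℕ) (o i)

/-- common ones of rows `x,y` strictly before the threshold. -/
def S1 (A : Fin n → Fin m → Bool) (x y : Fin n) (τ : ℕ) : Finset (Fin m) :=
  {c | A x c = true ∧ A y c = true ∧ (c : ℕ) < τ}

/-- ones of row `x` missing in row `y`, from the threshold on. -/
def S2 (A : Fin n → Fin m → Bool) (x y : Fin n) (τ : ℕ) : Finset (Fin m) :=
  {d | A x d = true ∧ A y d = false ∧ τ ≤ (d : ℕ)}

open Classical in
/-- a threshold for the pair `x,y` with both exceptional sets of size at most `k` (if any). -/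
noncomputable def tau (A : Fin n → Fin m → Bool) (k : ℕ) (x y : Fin n) : ℕ :=
  if h : ∃ τ : ℕ, #(S1 A x y τ) ≤ k ∧ #(S2 A x y τ) ≤ k then h.choose else 0

/-- first set of erased columns. -/
noncomputable def Z1 (A : Fin n → Fin m → Bool) (k : ℕ) (Rep : Finset (Fin n)) : Finset (Fin m) :=
  (Rep ×ˢ Rep).biUnion fun p =>
    if p.1 < p.2 then S1 A p.1 p.2 (tau A k p.1 p.2) ∪ S2 A p.1 p.2 (tau A k p.1 p.2) else ∅

/-- rows after the first erasure. -/
noncomputable def X1 (A : Fin n → Fin m → Bool) (k : ℕ) (Rep : Finset (Fin n)) (x : Fin n) :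
    Finset (Fin m) :=
  {c | A x c = true ∧ c ∉ Z1 A k Rep}

/-- the first `j` elements of `D`. -/
def D0 (D : Finset (Fin m)) (j : ℕ) : Finset (Fin m) := {d ∈ D | #{d' ∈ D | d' < d} < j}

/-- second set of erased columns. -/
noncomputable def Z2 (A : Fin n → Fin m → Bool) (k : ℕ) (Rep : Finset (Fin n)) : Finset (Fin m) :=
  (Rep ×ˢ Rep).biUnion fun p =>
    if p.1 < p.2 then D0 (X1 A k Rep p.1 ∩ X1 A k Rep p.2) (2 * k + 1) else ∅

/-- all erased columns. -/
noncomputable def ZZ (A : Fin n → Fin m → Bool) (k : ℕ) (Rep : Finset (Fin n)) : Finset (Fin m) :=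
  Z1 A k Rep ∪ Z2 A k Rep

/-- the sampled rows after erasure (empty for rows outside `Rep`). -/
noncomputable def XX (A : Fin n → Fin m → Bool) (k : ℕ) (Rep : Finset (Fin n)) (x : Fin n) :
    Finset (Fin m) :=
  if x ∈ Rep then univ.filter (fun c => A x c = true ∧ c ∉ ZZ A k Rep) else ∅

/-- all pairs of sampled rows carry few copies. -/
def Good (A : Fin n → Fin m → Bool) (k : ℕ) (Rep : Finset (Fin n)) : Prop :=
  ∀ x ∈ Rep, ∀ y ∈ Rep, x < y → ee A x y ≤ k * k

/-- row `i` carries few copies with every sampled row above it. -/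
def Typ (A : Fin n → Fin m → Bool) (k : ℕ) (Rep : Finset (Fin n)) (i : Fin n) : Prop :=
  ∀ x ∈ Rep, x < i → ee A x i ≤ k * k

/-- number of partners `d > c` in row `i` not covered by a sampled row above `i`. -/
def unc (A : Fin n → Fin m → Bool) (Rep : Finset (Fin n)) (i : Fin n) (c : Fin m) : ℕ :=
  #{d : Fin m | c < d ∧ A i d = true ∧ ¬ ∃ x ∈ Rep, x < i ∧ A x c = true ∧ A x d = true}

/-- number of uncovered pairs of row `i`. -/
def UU (A : Fin n → Fin m → Bool) (Rep : Finset (Fin n)) (i : Fin n) : ℕ :=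
  ∑ c : Fin m, if A i c = true then unc A Rep i c else 0

/-- copies on an ordered pair of rows. -/
def kap (A : Fin n → Fin m → Bool) (x y : Fin n) : ℕ := if x < y then ee A x y else 0

/-- the sample given by `ω`. -/
def RepOf {M : ℕ} (ω : Fin M → Fin n) : Finset (Fin n) := univ.image ω

def PP {M : ℕ} (A : Fin n → Fin m → Bool) (ω : Fin M → Fin n) : ℕ :=
  ∑ a, ∑ b, kap A (ω a) (ω b)

def QQ {M : ℕ} (A : Fin n → Fin m → Bool) (ω : Fin M → Fin n) : ℕ :=
  ∑ a, ∑ i, kap A (ω a) i

end Vale.Agent.Lib.P037L
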