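import Vale.Agent.Lib.P037L.LDefs

namespace Vale.Agent.Lib.P037L
open Finset
variable {n m : ℕ}

/-- ONE-DIMENSIONAL LEMMA.  Let `τ` be the largest `τ ≤ m` with `#{c ∈ P | c < τ} ≤ k`.
If `τ = m` the second set is empty.  Otherwise `#{c ∈ P | c < τ+1} ≥ k+1`, so
`#{c ∈ P | c < τ} = k`, every `d ∈ Q` with `τ ≤ d` has at least `k` partners `c < d`, and
`k * #{d ∈ Q | τ ≤ d} ≤ k*k`. -/
theorem one_dim (P Q : Finset (Fin m)) (k : ℕ) (hk : 1 ≤ k)
    (h : #{p ∈ P ×ˢ Q | p.1 < p.2} ≤ k * k) :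
    ∃ τ : ℕ, #(P.filter fun c : Fin m => (c : ℕ) < τ) ≤ k ∧
      #(Q.filter fun d : Fin m => τ ≤ (d : ℕ)) ≤ k := by
  classical
  set f : ℕ → ℕ := fun τ => #(P.filter fun c : Fin m => (c : ℕ) < τ) with hf
  have h0 : f 0 ≤ k := by simp [hf]
  set τ := Nat.findGreatest (fun τ => f τ ≤ k) m with hτ
  have h1 : f τ ≤ k := Nat.findGreatest_spec (P := fun τ => f τ ≤ k) (Nat.zero_le m) h0
  have hle : τ ≤ m := Nat.findGreatest_le m
  refine ⟨τ, h1, ?_⟩
  rcases Nat.lt_or_ge τ m with hlt | hge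
  · have h2 : ¬ f (τ + 1) ≤ k :=
      Nat.findGreatest_is_greatest (P := fun τ => f τ ≤ k) (Nat.lt_succ_self τ) hlt
    have h3 : f (τ + 1) ≤ f τ + 1 := by
      have hsub : (P.filter fun c : Fin m => (c : ℕ) < τ + 1) ⊆
          (P.filter fun c : Fin m => (c : ℕ) < τ) ∪ (univ.filter fun c : Fin m => (c : ℕ) = τ) := by
        intro c hc
        simp only [mem_filter, mem_union, mem_univ, true_and] at hc ⊢
        rcases Nat.lt_or_ge (c : ℕ) τ with h' | h'
        · exact Or.inl ⟨hc.1, h'⟩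
        · exact Or.inr (by omega)
      have hone : #(univ.filter fun c : Fin m => (c : ℕ) = τ) ≤ 1 := by
        apply card_le_one.mpr
        intro a ha b hb
        simp only [mem_filter, mem_univ, true_and] at ha hb
        exact Fin.ext (ha.trans hb.symm)
      calc f (τ + 1) ≤ _ := card_le_card hsub
        _ ≤ _ := card_union_le _ _
        _ ≤ f τ + 1 := by simp only [hf]; omega
    have h4 : f τ = k := by omega
    have h5 : (P.filter fun c : Fin m => (c : ℕ) < τ) ×ˢ (Q.filter fun d : Fin m => τ ≤ (d : ℕ))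
        ⊆ {p ∈ P ×ˢ Q | p.1 < p.2} := by
      intro p hp
      simp only [mem_product, mem_filter] at hp ⊢
      refine ⟨⟨hp.1.1, hp.2.1⟩, ?_⟩
      rw [Fin.lt_def]
      omega
    have h6 := card_le_card h5
    rw [card_product] at h6
    have h7 : k * #(Q.filter fun d : Fin m => τ ≤ (d : ℕ)) ≤ k * k := by
      have : #(P.filter fun c : Fin m => (c : ℕ) < τ) = k := h4
      rw [this] at h6
      exact h6.trans h
    exact Nat.le_of_mul_le_mul_left h7 hk
  · have : (Q.filter fun d : Fin m => τ ≤ (d : ℕ)) = ∅ := by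
      apply filter_eq_empty_iff.mpr
      intro d _ hd
      have := d.2
      omega
    rw [this]; simp

theorem tau_spec (A : Fin n → Fin m → Bool) (k : ℕ) (hk : 1 ≤ k) (x y : Fin n)
    (h : ee A x y ≤ k * k) :
    #(S1 A x y (tau A k x y)) ≤ k ∧ #(S2 A x y (tau A k x y)) ≤ k := by
  classical
  have hex : ∃ τ : ℕ, #(S1 A x y τ) ≤ k ∧ #(S2 A x y τ) ≤ k := by
    have h' : #{p ∈ (univ.filter fun c : Fin m => A x c = true ∧ A y c = true) ×ˢ
        (univ.filter fun d : Fin m => A x d = true ∧ A y d = false) | p.1 < p.2} ≤ k * k := by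
      refine le_trans (card_le_card ?_) h
      intro p hp
      simp only [mem_filter, mem_product, mem_univ, true_and] at hp ⊢
      exact ⟨hp.2, hp.1.1.1, hp.1.2.1, hp.1.1.2, hp.1.2.2⟩
    obtain ⟨τ, h1, h2⟩ := one_dim _ _ k hk h'
    refine ⟨τ, le_trans (card_le_card ?_) h1, le_trans (card_le_card ?_) h2⟩
    · intro c hc
      simp only [S1, mem_filter, mem_univ, true_and] at hc ⊢
      exact ⟨⟨hc.1, hc.2.1⟩, hc.2.2⟩
    · intro c hc
      simp only [S2, mem_filter, mem_univ, true_and] at hc ⊢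
      exact ⟨⟨hc.1, hc.2.1⟩, hc.2.2⟩
  unfold tau
  rw [dif_pos hex]
  exact hex.choose_spec

end Vale.Agent.Lib.P037L
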