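import Vale.Agent.Lib.P037L.Sound

namespace Vale.Agent.Lib.P037L
open Finset
variable {n m : ℕ}

theorem cover (A : Fin n → Fin m → Bool) (k : ℕ) (Rep : Finset (Fin n)) (i : Fin n) (c d : Fin m)
    (hcd : c < d) (hc : c ∉ ZZ A k Rep) (hd : d ∉ ZZ A k Rep) (x : Fin n) (hx : x ∈ Rep)
    (hxi : x < i) (h1 : A x c = true) (h2 : A x d = true) : Up (XX A k Rep) (i : ℕ) c d := by
  refine Relation.ReflTransGen.single ⟨x, hxi, ?_, ?_, hcd⟩
  · simp [XX, hx, h1, hc]
  · simp [XX, hx, h2, hd]

theorem card_biUnion_below_le (Rep : Finset (Fin n)) (i : Fin n) (k : ℕ)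
    (f : Fin n → Finset (Fin m)) (h : ∀ x ∈ Rep, x < i → #(f x) ≤ k) :
    #((Rep.filter (· < i)).biUnion f) ≤ #Rep * k := by
  calc #((Rep.filter (· < i)).biUnion f) ≤ ∑ x ∈ Rep.filter (· < i), #(f x) := card_biUnion_le
    _ ≤ ∑ _x ∈ Rep.filter (· < i), k := sum_le_sum (fun x hx => by
        rw [mem_filter] at hx; exact h x hx.1 hx.2)
    _ = #(Rep.filter (· < i)) * k := by simp
    _ ≤ #Rep * k := Nat.mul_le_mul_right _ (card_filter_le _ _)

theorem markov_unc (A : Fin n → Fin m → Bool) (Rep : Finset (Fin n)) (i : Fin n) (v : ℕ) :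
    #{c : Fin m | A i c = true ∧ v < unc A Rep i c} * v ≤ UU A Rep i := by
  unfold UU
  calc #{c : Fin m | A i c = true ∧ v < unc A Rep i c} * v
      = ∑ _c ∈ ({c : Fin m | A i c = true ∧ v < unc A Rep i c} : Finset (Fin m)), v := by simp
    _ ≤ ∑ c ∈ ({c : Fin m | A i c = true ∧ v < unc A Rep i c} : Finset (Fin m)),
          (if A i c = true then unc A Rep i c else 0) := sum_le_sum (fun c hc => by
        rw [mem_filter] at hc; rw [if_pos hc.2.1]; exact hc.2.2.le)
    _ ≤ ∑ c : Fin m, (if A i c = true then unc A Rep i c else 0) :=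
        sum_le_sum_of_subset (subset_univ _)

/-- ROW COST.  `Bad = ZZ ∪ ⋃_{x ∈ Rep, x < i} S1 A x i (tau A k x i)`, `#Bad ≤ #ZZ + #Rep*k`.
`G = {c | A i c = true ∧ c ∉ Bad ∧ unc A Rep i c ≤ v}`.  If `G = ∅` take `o = none`:
every one of row `i` is in `Bad` or has `unc > v`; the latter are at most `UU/v` (Markov).
Otherwise `o = some c0`, `c0 = min G`.  Ones of row `i` missing in the new row: those before `c0`
(in `Bad` or `unc > v`), those in `ZZ`, and uncovered partners of `c0` (at most `v`), by `cover`.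
New ones outside row `i`: in `⋃ S2`, at most `#Rep * k`, by `sound` and `tau_spec`. -/
theorem row_cost (A : Fin n → Fin m → Bool) (k : ℕ) (hk : 1 ≤ k) (Rep : Finset (Fin n))
    (i : Fin n) (ht : Typ A k Rep i) (v : ℕ) (hv : 1 ≤ v) :
    ∃ o : Option (Fin m),
      (#{d : Fin m | A i d ≠ rowOf (XX A k Rep) (i : ℕ) o d} : ℝ)
        ≤ 2 * #(ZZ A k Rep) + 2 * ((#Rep : ℝ) * k) + v + (UU A Rep i : ℝ) / v := by
  classical
  set S1U : Finset (Fin m) := (Rep.filter (· < i)).biUnion (fun x => S1 A x i (tau A k x i))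
    with hS1U
  set S2U : Finset (Fin m) := (Rep.filter (· < i)).biUnion (fun x => S2 A x i (tau A k x i))
    with hS2U
  set Hv : Finset (Fin m) := {c : Fin m | A i c = true ∧ v < unc A Rep i c} with hHv
  set G : Finset (Fin m) :=
    {c : Fin m | A i c = true ∧ c ∉ ZZ A k Rep ∧ c ∉ S1U ∧ unc A Rep i c ≤ v} with hG
  have c1 : #S1U ≤ #Rep * k :=
    card_biUnion_below_le Rep i k _ (fun x hx hxi => (tau_spec A k hk x i (ht x hx hxi)).1)
  have c2 : #S2U ≤ #Rep * k :=
    card_biUnion_below_le Rep i k _ (fun x hx hxi => (tau_spec A k hk x i (ht x hx hxi)).2)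
  have c3 : #Hv * v ≤ UU A Rep i := markov_unc A Rep i v
  have hv0 : (0 : ℝ) < v := by exact_mod_cast hv
  have c3' : (#Hv : ℝ) ≤ (UU A Rep i : ℝ) / v := by
    rw [le_div_iff₀ hv0]; exact_mod_cast c3
  have c1' : (#S1U : ℝ) ≤ (#Rep : ℝ) * k := by exact_mod_cast c1
  have c2' : (#S2U : ℝ) ≤ (#Rep : ℝ) * k := by exact_mod_cast c2
  have hZ0 : (0 : ℝ) ≤ #(ZZ A k Rep) := Nat.cast_nonneg _
  have hR0 : (0 : ℝ) ≤ (#Rep : ℝ) * k := by positivity
  -- a one of row `i` outside `G` is bad or heavy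
  have hout : ∀ d : Fin m, A i d = true → d ∉ G → d ∈ ZZ A k Rep ∪ S1U ∪ Hv := by
    intro d hd hdG
    by_contra hcon
    simp only [mem_union, not_or] at hcon
    apply hdG
    rw [hG, mem_filter]
    refine ⟨mem_univ _, hd, hcon.1.1, hcon.1.2, ?_⟩
    by_contra hlt
    apply hcon.2
    rw [hHv, mem_filter]
    exact ⟨mem_univ _, hd, not_le.1 hlt⟩
  by_cases hGe : G.Nonempty
  · set c0 := G.min' hGe with hc0
    have hc0G : c0 ∈ G := G.min'_mem hGe
    have hc0' := hc0G
    rw [hG, mem_filter] at hc0'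
    obtain ⟨-, g1, g2, g3, g4⟩ := hc0'
    set Uc : Finset (Fin m) :=
      {d : Fin m | c0 < d ∧ A i d = true ∧ ¬ ∃ x ∈ Rep, x < i ∧ A x c0 = true ∧ A x d = true}
      with hUc
    have c4 : #Uc ≤ v := g4
    have c4' : (#Uc : ℝ) ≤ v := by exact_mod_cast c4
    have h0S : ∀ x ∈ Rep, x < i → c0 ∉ S1 A x i (tau A k x i) := by
      intro x hx hxi hmem
      apply g3
      rw [hS1U, mem_biUnion]
      exact ⟨x, mem_filter.2 ⟨hx, hxi⟩, hmem⟩
    refine ⟨some c0, ?_⟩
    have hsub : ({d : Fin m | A i d ≠ rowOf (XX A k Rep) (i : ℕ) (some c0) d} : Finset (Fin m))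
        ⊆ (ZZ A k Rep ∪ S1U ∪ Hv) ∪ (S2U ∪ Uc) := by
      intro d hd
      rw [mem_filter] at hd
      have hd2 := hd.2
      simp only [rowOf] at hd2
      by_cases hup : Up (XX A k Rep) (i : ℕ) c0 d
      · -- new one
        have hAd : A i d = false := by
          rw [decide_eq_true hup] at hd2
          simpa using hd2
        rcases sound A k hk Rep i ht c0 g1 g2 h0S d hup with h | ⟨x, hx, hxi, hmem⟩
        · rw [hAd] at h; exact absurd h (by simp)
        · refine mem_union_right _ (mem_union_left _ ?_)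
          rw [hS2U, mem_biUnion]
          exact ⟨x, mem_filter.2 ⟨hx, hxi⟩, hmem⟩
      · have hAd : A i d = true := by
          rw [decide_eq_false hup] at hd2
          simpa using hd2
        rcases lt_trichotomy d c0 with hlt | heq | hgt
        · refine mem_union_left _ (hout d hAd ?_)
          intro hdG
          exact absurd (G.min'_le d hdG) (not_le.2 hlt)
        · exact absurd (heq ▸ Relation.ReflTransGen.refl) hup
        · by_cases hdZ : d ∈ ZZ A k Rep
          · exact mem_union_left _ (mem_union_left _ (mem_union_left _ hdZ))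
          · refine mem_union_right _ (mem_union_right _ ?_)
            rw [hUc, mem_filter]
            refine ⟨mem_univ _, hgt, hAd, ?_⟩
            rintro ⟨x, hx, hxi, h1, h2⟩
            exact hup (cover A k Rep i c0 d hgt g2 hdZ x hx hxi h1 h2)
    have hcard : #({d : Fin m | A i d ≠ rowOf (XX A k Rep) (i : ℕ) (some c0) d} : Finset (Fin m))
        ≤ #(ZZ A k Rep) + #S1U + #Hv + (#S2U + #Uc) := by
      refine (card_le_card hsub).trans ?_
      refine (card_union_le _ _).trans ?_
      refine Nat.add_le_add ?_ (card_union_le _ _)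
      refine (card_union_le _ _).trans ?_
      exact Nat.add_le_add_right (card_union_le _ _) _
    have hcard' : (#({d : Fin m | A i d ≠ rowOf (XX A k Rep) (i : ℕ) (some c0) d} :
        Finset (Fin m)) : ℝ) ≤ #(ZZ A k Rep) + #S1U + #Hv + (#S2U + #Uc) := by
      exact_mod_cast hcard
    linarith
  · refine ⟨none, ?_⟩
    have hGe' : G = ∅ := not_nonempty_iff_eq_empty.1 hGe
    have hsub : ({d : Fin m | A i d ≠ rowOf (XX A k Rep) (i : ℕ) none d} : Finset (Fin m))
        ⊆ ZZ A k Rep ∪ S1U ∪ Hv := by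
      intro d hd
      rw [mem_filter] at hd
      have hd2 := hd.2
      simp only [rowOf] at hd2
      have hAd : A i d = true := by simpa using hd2
      exact hout d hAd (by rw [hGe']; simp)
    have hcard : #({d : Fin m | A i d ≠ rowOf (XX A k Rep) (i : ℕ) none d} : Finset (Fin m))
        ≤ #(ZZ A k Rep) + #S1U + #Hv := by
      refine (card_le_card hsub).trans ?_
      refine (card_union_le _ _).trans ?_
      exact Nat.add_le_add_right (card_union_le _ _) _
    have hcard' : (#({d : Fin m | A i d ≠ rowOf (XX A k Rep) (i : ℕ) none d} :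
        Finset (Fin m)) : ℝ) ≤ #(ZZ A k Rep) + #S1U + #Hv := by
      exact_mod_cast hcard
    have hv1 : (0 : ℝ) ≤ v := hv0.le
    linarith

end Vale.Agent.Lib.P037L
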