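import Vale.Agent.Lib.P037L.Zero
import Vale.Agent.Lib.P037L.Forest

namespace Vale.Agent.Lib.P037L
open Finset
variable {n m : ℕ}

theorem mem_XX_iff (A : Fin n → Fin m → Bool) (k : ℕ) (Rep : Finset (Fin n)) (x : Fin n)
    (c : Fin m) : c ∈ XX A k Rep x ↔ x ∈ Rep ∧ A x c = true ∧ c ∉ ZZ A k Rep := by
  unfold XX
  split_ifs with h
  · simp [h]
  · simp [h]

theorem mem_X1_iff (A : Fin n → Fin m → Bool) (k : ℕ) (Rep : Finset (Fin n)) (x : Fin n)
    (c : Fin m) : c ∈ X1 A k Rep x ↔ A x c = true ∧ c ∉ Z1 A k Rep := by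
  unfold X1
  simp

/-- the invariant carried along a path -/
def Inv (A : Fin n → Fin m → Bool) (k : ℕ) (Rep : Finset (Fin n)) (i : Fin n) (c : Fin m) : Prop :=
  c ∉ ZZ A k Rep ∧ ∀ s ∈ Rep, s < i → A s c = true →
    (∀ s' ∈ Rep, s' < i → A s' c = true → s' ≤ s) → tau A k s i ≤ (c : ℕ)

theorem sound_step (A : Fin n → Fin m → Bool) (k : ℕ) (hk : 1 ≤ k) (Rep : Finset (Fin n))
    (i : Fin n) (ht : Typ A k Rep i) (c d : Fin m) (hc : Inv A k Rep i c)
    (hs : Stp (XX A k Rep) (i : ℕ) c d) :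
    Inv A k Rep i d ∧ (A i d = true ∨ ∃ x ∈ Rep, x < i ∧ d ∈ S2 A x i (tau A k x i)) := by
  classical
  obtain ⟨x, hxi, hcx, hdx, hcd⟩ := hs
  rw [mem_XX_iff] at hcx hdx
  obtain ⟨hxR, hAxc, hcZ⟩ := hcx
  obtain ⟨-, hAxd, hdZ⟩ := hdx
  have hxi' : x < i := hxi
  -- the latest sampled row above `i` containing `c`
  set F : Finset (Fin n) := Rep.filter fun s => s < i ∧ A s c = true with hF
  have hFne : F.Nonempty := ⟨x, by simp [hF, hxR, hxi', hAxc]⟩
  set s := F.max' hFne with hsdef
  have hsF : s ∈ F := Finset.max'_mem F hFne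
  have hsR : s ∈ Rep := (Finset.mem_filter.1 hsF).1
  have hsi : s < i := (Finset.mem_filter.1 hsF).2.1
  have hAsc : A s c = true := (Finset.mem_filter.1 hsF).2.2
  have hsmax : ∀ s' ∈ Rep, s' < i → A s' c = true → s' ≤ s := by
    intro s' h1 h2 h3
    exact Finset.le_max' F s' (by simp [hF, h1, h2, h3])
  have hτc : tau A k s i ≤ (c : ℕ) := hc.2 s hsR hsi hAsc hsmax
  have hxs : x ≤ s := hsmax x hxR hxi' hAxc
  have hAsd : A s d = true := by
    rcases lt_or_eq_of_le hxs with h | h
    · have := exact_XX A k Rep x s h c d hcd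
        ((mem_XX_iff A k Rep x c).2 ⟨hxR, hAxc, hcZ⟩) ((mem_XX_iff A k Rep x d).2 ⟨hxR, hAxd, hdZ⟩)
        ((mem_XX_iff A k Rep s c).2 ⟨hsR, hAsc, hcZ⟩)
      exact ((mem_XX_iff A k Rep s d).1 this).2.1
    · rw [← h]; exact hAxd
  have hcdN : (c : ℕ) < (d : ℕ) := hcd
  refine ⟨⟨hdZ, ?_⟩, ?_⟩
  · intro s' hs'R hs'i hAs'd hs'max
    have hss' : s ≤ s' := hs'max s hsR hsi hAsd
    rcases lt_or_eq_of_le hss' with hlt | heq
    · -- the main case
      by_contra hcon
      push Not at hcon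
      have hAs'c : A s' c ≠ true := by
        intro h
        exact absurd (hsmax s' hs'R hs'i h) (not_le.2 hlt)
      have hcZ1 : c ∉ Z1 A k Rep := fun h => hcZ (by unfold ZZ; exact Finset.mem_union_left _ h)
      have hdZ1 : d ∉ Z1 A k Rep := fun h => hdZ (by unfold ZZ; exact Finset.mem_union_left _ h)
      have hdZ2 : d ∉ Z2 A k Rep := fun h => hdZ (by unfold ZZ; exact Finset.mem_union_right _ h)
      set D := X1 A k Rep s ∩ X1 A k Rep s' with hD
      have hdD : d ∈ D := by
        rw [hD, Finset.mem_inter, mem_X1_iff, mem_X1_iff]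
        exact ⟨⟨hAsd, hdZ1⟩, ⟨hAs'd, hdZ1⟩⟩
      have hdD0 : d ∉ D0 D (2 * k + 1) := by
        intro h
        apply hdZ2
        unfold Z2
        rw [Finset.mem_biUnion]
        refine ⟨(s, s'), Finset.mem_product.2 ⟨hsR, hs'R⟩, ?_⟩
        simp only [hlt, if_true]
        exact h
      have hE : 2 * k + 1 ≤ #{d' ∈ D | d' < d} := by
        by_contra h
        push Not at h
        apply hdD0
        unfold D0
        exact Finset.mem_filter.2 ⟨hdD, h⟩
      have hsub : ({d' ∈ D | d' < d} : Finset (Fin m))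
          ⊆ S2 A s i (tau A k s i) ∪ S1 A s' i (tau A k s' i) := by
        intro d' hd'
        obtain ⟨hd'D, hd'd⟩ := Finset.mem_filter.1 hd'
        rw [hD, Finset.mem_inter, mem_X1_iff, mem_X1_iff] at hd'D
        obtain ⟨⟨h1, h1Z⟩, ⟨h2, -⟩⟩ := hd'D
        have hcd' : c < d' := by
          by_contra hh
          push Not at hh
          rcases lt_or_eq_of_le hh with h3 | h3
          · have := exact_X1 A k Rep s s' hsR hs'R hlt d' c h3
              ((mem_X1_iff A k Rep s d').2 ⟨h1, h1Z⟩) ((mem_X1_iff A k Rep s c).2 ⟨hAsc, hcZ1⟩)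
              ((mem_X1_iff A k Rep s' d').2 ⟨h2, h1Z⟩)
            exact hAs'c ((mem_X1_iff A k Rep s' c).1 this).1
          · rw [h3] at h2
            exact hAs'c h2
        have hcd'N : (c : ℕ) < (d' : ℕ) := hcd'
        have hd'dN : (d' : ℕ) < (d : ℕ) := hd'd
        rw [Finset.mem_union]
        by_cases hi : A i d' = true
        · right
          unfold S1
          simp only [Finset.mem_filter, Finset.mem_univ, true_and]
          exact ⟨h2, hi, by omega⟩
        · left
          unfold S2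
          simp only [Finset.mem_filter, Finset.mem_univ, true_and]
          exact ⟨h1, by simpa using hi, by omega⟩
      have hc1 := (tau_spec A k hk s i (ht s hsR hsi)).2
      have hc2 := (tau_spec A k hk s' i (ht s' hs'R hs'i)).1
      have := Finset.card_le_card hsub
      have h3 := Finset.card_union_le (S2 A s i (tau A k s i)) (S1 A s' i (tau A k s' i))
      omega
    · rw [← heq]
      omega
  · by_cases hi : A i d = true
    · left; exact hi
    · right
      refine ⟨s, hsR, hsi, ?_⟩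
      unfold S2
      simp only [Finset.mem_filter, Finset.mem_univ, true_and]
      exact ⟨hAsd, by simpa using hi, by omega⟩

/-- SOUNDNESS. -/
theorem sound (A : Fin n → Fin m → Bool) (k : ℕ) (hk : 1 ≤ k) (Rep : Finset (Fin n))
    (i : Fin n) (ht : Typ A k Rep i) (c0 : Fin m) (h0 : A i c0 = true) (h0Z : c0 ∉ ZZ A k Rep)
    (h0S : ∀ x ∈ Rep, x < i → c0 ∉ S1 A x i (tau A k x i))
    (d : Fin m) (hd : Up (XX A k Rep) (i : ℕ) c0 d) :
    A i d = true ∨ ∃ x ∈ Rep, x < i ∧ d ∈ S2 A x i (tau A k x i) := by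
  have key : Inv A k Rep i d ∧
      (A i d = true ∨ ∃ x ∈ Rep, x < i ∧ d ∈ S2 A x i (tau A k x i)) := by
    unfold Up at hd
    induction hd with
    | refl =>
      refine ⟨⟨h0Z, ?_⟩, Or.inl h0⟩
      intro s hsR hsi hAs _
      have := h0S s hsR hsi
      unfold S1 at this
      simp only [Finset.mem_filter, Finset.mem_univ, true_and, not_and, not_lt] at this
      exact this hAs h0
    | tail _ hbc ih => exact sound_step A k hk Rep i ht _ _ ih.1 hbc
  exact key.2

end Vale.Agent.Lib.P037L
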