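import Vale.Agent.Lib.P037L.RowCost

namespace Vale.Agent.Lib.P037L
open Finset
open Vale.Agent.Lib.P037 (hd)
variable {n m : ℕ}

open Classical in
/-- TOTAL COST: typical rows by `row_cost`, the other rows get `none` (cost at most `m`);
`LFree` by `build_LFree` and `exact_XX`.  `hd A B = ∑ i, #{d | A i d ≠ B i d}`. -/
theorem total_cost (A : Fin n → Fin m → Bool) (k : ℕ) (hk : 1 ≤ k) (Rep : Finset (Fin n))
    (v : ℕ) (hv : 1 ≤ v) :
    ∃ B : Fin n → Fin m → Bool, LFree B ∧
      (hd A B : ℝ) ≤ n * (2 * #(ZZ A k Rep) + 2 * ((#Rep : ℝ) * k) + v)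
        + (∑ i, (UU A Rep i : ℝ)) / v + m * #{i : Fin n | ¬ Typ A k Rep i} := by
  have hch : ∀ i : Fin n, ∃ o : Option (Fin m), (Typ A k Rep i →
      (#{d : Fin m | A i d ≠ rowOf (XX A k Rep) (i : ℕ) o d} : ℝ)
        ≤ 2 * #(ZZ A k Rep) + 2 * ((#Rep : ℝ) * k) + v + (UU A Rep i : ℝ) / v) := by
    intro i
    by_cases ht : Typ A k Rep i
    · obtain ⟨o, ho⟩ := row_cost A k hk Rep i ht v hv
      exact ⟨o, fun _ => ho⟩
    · exact ⟨none, fun h => absurd h ht⟩
  choose o ho using hch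
  refine ⟨build (XX A k Rep) o, build_LFree _ (exact_XX A k Rep) o, ?_⟩
  have h1 : hd A (build (XX A k Rep) o)
      = ∑ i, #{d : Fin m | A i d ≠ build (XX A k Rep) o i d} := by
    unfold hd
    rw [card_filter, Fintype.sum_prod_type]
    refine sum_congr rfl fun i _ => ?_
    rw [card_filter]
  have hvpos : (0 : ℝ) < v := by exact_mod_cast hv
  have hrow : ∀ i : Fin n, (#{d : Fin m | A i d ≠ build (XX A k Rep) o i d} : ℝ) ≤
      (2 * #(ZZ A k Rep) + 2 * ((#Rep : ℝ) * k) + v) + (UU A Rep i : ℝ) / v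
        + (if ¬ Typ A k Rep i then (m : ℝ) else 0) := by
    intro i
    by_cases ht : Typ A k Rep i
    · simp only [ht, not_true_eq_false, if_false, add_zero]
      exact ho i ht
    · simp only [ht, not_false_eq_true, if_true]
      have hc : #{d : Fin m | A i d ≠ build (XX A k Rep) o i d} ≤ m :=
        (card_le_univ _).trans (by simp)
      have hc' : (#{d : Fin m | A i d ≠ build (XX A k Rep) o i d} : ℝ) ≤ m := by
        exact_mod_cast hc
      have hp1 : (0 : ℝ) ≤ 2 * #(ZZ A k Rep) + 2 * ((#Rep : ℝ) * k) + v := by positivity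
      have hp2 : (0 : ℝ) ≤ (UU A Rep i : ℝ) / v := by positivity
      linarith
  have hm : (m : ℝ) * #{i : Fin n | ¬ Typ A k Rep i}
      = ∑ i : Fin n, (if ¬ Typ A k Rep i then (m : ℝ) else 0) := by
    rw [card_filter]
    push_cast
    rw [mul_sum]
    refine sum_congr rfl fun i _ => ?_
    split_ifs <;> simp
  rw [h1, hm, sum_div]
  push_cast
  calc ∑ i : Fin n, (#{d : Fin m | A i d ≠ build (XX A k Rep) o i d} : ℝ)
      ≤ ∑ i : Fin n, ((2 * #(ZZ A k Rep) + 2 * ((#Rep : ℝ) * k) + v) + (UU A Rep i : ℝ) / v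
        + (if ¬ Typ A k Rep i then (m : ℝ) else 0)) := sum_le_sum fun i _ => hrow i
    _ = _ := by
        rw [sum_add_distrib, sum_add_distrib]
        simp only [sum_const, card_univ, Fintype.card_fin, nsmul_eq_mul]
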