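import Vale.Agent.Lib.P037L.OneDim

namespace Vale.Agent.Lib.P037L
open Finset
variable {n m : ℕ}

/-- the rank map `d ↦ #{d' ∈ D | d' < d}` is injective on `D`. -/
theorem card_D0_le (D : Finset (Fin m)) (j : ℕ) : #(D0 D j) ≤ j := by
  have hlt : ∀ d1 ∈ D, ∀ d2 ∈ D, d1 < d2 → #{d' ∈ D | d' < d1} < #{d' ∈ D | d' < d2} := by
    intro d1 h1 d2 _ h12
    apply Finset.card_lt_card
    rw [Finset.ssubset_iff_of_subset]
    · exact ⟨d1, by simp [h1, h12], by simp⟩
    · intro u hu
      rw [mem_filter] at hu ⊢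
      exact ⟨hu.1, lt_trans hu.2 h12⟩
  have hinj : Set.InjOn (fun d => #{d' ∈ D | d' < d}) (D0 D j : Set (Fin m)) := by
    intro d1 h1 d2 h2 heq
    have h1' : d1 ∈ D := (mem_filter.mp h1).1
    have h2' : d2 ∈ D := (mem_filter.mp h2).1
    simp only at heq
    rcases lt_trichotomy d1 d2 with h | h | h
    · exact absurd heq (ne_of_lt (hlt d1 h1' d2 h2' h))
    · exact h
    · exact absurd heq.symm (ne_of_lt (hlt d2 h2' d1 h1' h))
  have hmaps : ∀ d ∈ D0 D j, (fun d => #{d' ∈ D | d' < d}) d ∈ Finset.range j := by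
    intro d hd
    rw [Finset.mem_range]
    exact (mem_filter.mp hd).2
  have := Finset.card_le_card_of_injOn _ hmaps hinj
  rwa [Finset.card_range] at this

theorem card_ZZ_le (A : Fin n → Fin m → Bool) (k : ℕ) (hk : 1 ≤ k) (Rep : Finset (Fin n))
    (hg : Good A k Rep) : #(ZZ A k Rep) ≤ #Rep ^ 2 * (4 * k + 1) := by
  have h1 : #(Z1 A k Rep) ≤ #Rep ^ 2 * (2 * k) := by
    unfold Z1
    refine le_trans Finset.card_biUnion_le ?_
    have : ∀ p ∈ Rep ×ˢ Rep, #(if p.1 < p.2 then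
        S1 A p.1 p.2 (tau A k p.1 p.2) ∪ S2 A p.1 p.2 (tau A k p.1 p.2) else ∅) ≤ 2 * k := by
      intro p hp
      rw [mem_product] at hp
      split_ifs with hlt
      · have := tau_spec A k hk p.1 p.2 (hg p.1 hp.1 p.2 hp.2 hlt)
        refine le_trans (Finset.card_union_le _ _) ?_
        omega
      · simp
    refine le_trans (Finset.sum_le_sum this) ?_
    rw [Finset.sum_const, Finset.card_product, smul_eq_mul]
    exact le_of_eq (by ring)
  have h2 : #(Z2 A k Rep) ≤ #Rep ^ 2 * (2 * k + 1) := by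
    unfold Z2
    refine le_trans Finset.card_biUnion_le ?_
    have : ∀ p ∈ Rep ×ˢ Rep, #(if p.1 < p.2 then
        D0 (X1 A k Rep p.1 ∩ X1 A k Rep p.2) (2 * k + 1) else ∅) ≤ 2 * k + 1 := by
      intro p _
      split_ifs with hlt
      · exact card_D0_le _ _
      · simp
    refine le_trans (Finset.sum_le_sum this) ?_
    rw [Finset.sum_const, Finset.card_product, smul_eq_mul]
    exact le_of_eq (by ring)
  unfold ZZ
  refine le_trans (Finset.card_union_le _ _) ?_
  calc #(Z1 A k Rep) + #(Z2 A k Rep) ≤ #Rep ^ 2 * (2 * k) + #Rep ^ 2 * (2 * k + 1) :=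
        Nat.add_le_add h1 h2
    _ = #Rep ^ 2 * (4 * k + 1) := by ring

/-- `c ∉ S1` gives `τ ≤ c < d`, then `d ∉ S2` gives `A y d = true`. (No smallness needed.) -/
theorem exact_X1 (A : Fin n → Fin m → Bool) (k : ℕ) (Rep : Finset (Fin n)) (x y : Fin n)
    (hx : x ∈ Rep) (hy : y ∈ Rep) (hxy : x < y) (c d : Fin m) (hcd : c < d)
    (h1 : c ∈ X1 A k Rep x) (h2 : d ∈ X1 A k Rep x) (h3 : c ∈ X1 A k Rep y) :
    d ∈ X1 A k Rep y := by
  unfold X1 at h1 h2 h3 ⊢
  simp only [mem_filter, mem_univ, true_and] at h1 h2 h3 ⊢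
  refine ⟨?_, h2.2⟩
  have hsub : S1 A x y (tau A k x y) ∪ S2 A x y (tau A k x y) ⊆ Z1 A k Rep := by
    intro u hu
    unfold Z1
    rw [mem_biUnion]
    refine ⟨(x, y), mem_product.mpr ⟨hx, hy⟩, ?_⟩
    simp only [if_pos hxy]
    exact hu
  have hc1 : c ∉ S1 A x y (tau A k x y) := fun h => h1.2 (hsub (mem_union_left _ h))
  have hd2 : d ∉ S2 A x y (tau A k x y) := fun h => h2.2 (hsub (mem_union_right _ h))
  unfold S1 at hc1
  unfold S2 at hd2
  simp only [mem_filter, mem_univ, true_and] at hc1 hd2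
  have hτ : tau A k x y ≤ (c : ℕ) := by
    by_contra h
    push Not at h
    exact hc1 ⟨h1.1, h3.1, h⟩
  have hcdv : (c : ℕ) < (d : ℕ) := hcd
  by_contra hne
  have hf : A y d = false := by simpa using hne
  exact hd2 ⟨h2.1, hf, by omega⟩

theorem exact_XX (A : Fin n → Fin m → Bool) (k : ℕ) (Rep : Finset (Fin n)) :
    Exact (XX A k Rep) := by
  intro x y hxy c d hcd h1 h2 h3
  unfold XX at h1 h2 h3 ⊢
  by_cases hx : x ∈ Rep
  · by_cases hy : y ∈ Rep
    · rw [if_pos hx] at h1 h2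
      rw [if_pos hy] at h3 ⊢
      simp only [mem_filter, mem_univ, true_and] at h1 h2 h3 ⊢
      have hZ : ∀ u, u ∉ ZZ A k Rep → u ∉ Z1 A k Rep := by
        intro u hu h
        exact hu (by unfold ZZ; exact mem_union_left _ h)
      have := exact_X1 A k Rep x y hx hy hxy c d hcd
        (by unfold X1; simp only [mem_filter, mem_univ, true_and]; exact ⟨h1.1, hZ c h1.2⟩)
        (by unfold X1; simp only [mem_filter, mem_univ, true_and]; exact ⟨h2.1, hZ d h2.2⟩)
        (by unfold X1; simp only [mem_filter, mem_univ, true_and]; exact ⟨h3.1, hZ c h3.2⟩)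
      unfold X1 at this
      simp only [mem_filter, mem_univ, true_and] at this
      exact ⟨this.1, h2.2⟩
    · rw [if_neg hy] at h3
      exact absurd h3 (Finset.notMem_empty _)
  · rw [if_neg hx] at h1
    exact absurd h1 (Finset.notMem_empty _)

end Vale.Agent.Lib.P037L
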